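import Vale.Agent.P121.Data

/-! Cluster geometry: the potential inequality and its contact set. -/

namespace Vale.Agent.P121

open MeasureTheory Set Filter Topology
open scoped RealInnerProductSpace NNReal ENNReal

/-- exchange of the first two coordinates -/
noncomputable def σ : E3 ≃ₗᵢ[ℝ] E3 := LinearIsometryEquiv.piLpCongrLeft 2 ℝ ℝ (Equiv.swap 0 1)

lemma σ_0 (x : E3) : σ x 0 = x 1 := by
  simp [σ, LinearIsometryEquiv.piLpCongrLeft_apply]
lemma σ_1 (x : E3) : σ x 1 = x 0 := by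
  simp [σ, LinearIsometryEquiv.piLpCongrLeft_apply]
lemma σ_2 (x : E3) : σ x 2 = x 2 := by
  simp [σ, LinearIsometryEquiv.piLpCongrLeft_apply, Equiv.swap_apply_of_ne_of_ne]

@[simp] lemma σ_σ (x : E3) : σ (σ x) = x := by
  ext i
  fin_cases i
  · simp [σ_0, σ_1]
  · simp [σ_0, σ_1]
  · simp [σ_2]

/-- second corner direction -/
noncomputable def e2 : E3 := σ e1

lemma σ_e1 : σ e1 = e2 := rfl
lemma σ_e2 : σ e2 = e1 := σ_σ e1

@[simp] lemma e2_0 : e2 0 = 0 := by rw [e2, σ_0]; simp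
@[simp] lemma e2_1 : e2 1 = 1 := by rw [e2, σ_1]; simp
@[simp] lemma e2_2 : e2 2 = 0 := by rw [e2, σ_2]; simp

/-- centers -/
noncomputable def cen : Fin 5 → E3 := ![0, e1, -e1, e2, -e2]

/-- values of the potential at the centers -/
noncomputable def val : Fin 5 → ℝ := ![3 / 2, 1 / 2, 1 / 2, 1 / 2, 1 / 2]

/-- squared distances of the centers -/
noncomputable def dsq : Fin 5 → Fin 5 → ℝ :=
  ![![0, 1, 1, 1, 1], ![1, 0, 4, 2, 2], ![1, 4, 0, 2, 2], ![1, 2, 2, 0, 4], ![1, 2, 2, 4, 0]]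

/-- upper bounds for the distances of the centers -/
noncomputable def dd : Fin 5 → Fin 5 → ℝ :=
  ![![0, 1, 1, 1, 1], ![1, 0, 2, 1.415, 1.415], ![1, 2, 0, 1.415, 1.415],
    ![1, 1.415, 1.415, 0, 2], ![1, 1.415, 1.415, 2, 0]]

lemma dist_cen_sq (i j : Fin 5) : dist (cen i) (cen j) ^ 2 = dsq i j := by
  rw [dist_eq_norm, norm_sq3]
  fin_cases i <;> fin_cases j <;> simp [cen, dsq] <;> norm_num

lemma dist_cen_le (i j : Fin 5) : dist (cen i) (cen j) ≤ dd i j := by
  have h1 : 0 ≤ dd i j := by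
    fin_cases i <;> fin_cases j <;> simp [dd] <;> norm_num
  have h2 : dsq i j ≤ dd i j ^ 2 := by
    fin_cases i <;> fin_cases j <;> simp [dd, dsq] <;> norm_num
  rw [← dist_cen_sq] at h2
  exact abs_le_of_sq_le_sq' h2 h1 |>.2

lemma one_le_dist_cen (i j : Fin 5) (h : i ≠ j) : 1 ≤ dist (cen i) (cen j) := by
  have h2 : 1 ≤ dsq i j := by
    fin_cases i <;> fin_cases j <;> first | exact absurd rfl h | (simp [dsq]) <;> norm_num
  rw [← dist_cen_sq] at h2
  nlinarith [dist_nonneg (x := cen i) (y := cen j)]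

lemma coulomb_ge (x y z : E3) : ENNReal.ofReal (cR x y z) ≤ coulomb x y z := by
  have h : ∀ x y : E3, ENNReal.ofReal (‖x - y‖⁻¹) ≤ (edist x y)⁻¹ := by
    intro x y
    rw [edist_dist, dist_eq_norm]
    by_cases h : ‖x - y‖ = 0
    · simp [h]
    · rw [ENNReal.ofReal_inv_of_pos (lt_of_le_of_ne (norm_nonneg _) (Ne.symm h))]
  unfold cR coulomb
  rw [ENNReal.ofReal_add (by positivity) (by positivity), ENNReal.ofReal_add (by positivity) (by positivity)]
  gcongr <;> exact h _ _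

lemma coulomb_eq {x y z : E3} (h1 : x ≠ y) (h2 : x ≠ z) (h3 : y ≠ z) :
    coulomb x y z = ENNReal.ofReal (cR x y z) := by
  have h : ∀ x y : E3, x ≠ y → (edist x y)⁻¹ = ENNReal.ofReal (‖x - y‖⁻¹) := by
    intro x y hxy
    rw [edist_dist, dist_eq_norm, ENNReal.ofReal_inv_of_pos (norm_pos_iff.mpr (sub_ne_zero.mpr hxy))]
  unfold cR coulomb
  rw [ENNReal.ofReal_add (by positivity) (by positivity), ENNReal.ofReal_add (by positivity) (by positivity),
    h _ _ h1, h _ _ h2, h _ _ h3]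

namespace Data

variable (D : Data)

/-- potential at the `b` points -/
noncomputable def vv (b : E3) : ℝ := Psi b (D.α b, D.γ b)

/-- the five clusters -/
def cl : Fin 5 → Set E3 :=
  ![Metric.closedBall 0 D.R, Metric.closedBall e1 D.r, Metric.closedBall (-e1) D.R,
    σ ⁻¹' Metric.closedBall e1 D.r, σ ⁻¹' Metric.closedBall (-e1) D.R]

/-- the five potentials -/
noncomputable def pot : Fin 5 → E3 → ℝ :=
  ![uu, D.vv, ww, fun x => D.vv (σ x), fun x => ww (σ x)]

lemma dist_cl {i : Fin 5} {x : E3} (hx : x ∈ D.cl i) : dist x (cen i) ≤ 1 / 100 := by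
  have hr := D.hrR
  have hR := D.hR
  have e1' : e2 = σ e1 := rfl
  fin_cases i
  · have : dist x 0 ≤ D.R := hx
    simpa [cen] using this.trans hR
  · have : dist x e1 ≤ D.r := hx
    exact this.trans (hr.trans hR)
  · have : dist x (-e1) ≤ D.R := hx
    exact this.trans hR
  · have h : dist (σ x) e1 ≤ D.r := hx
    have h2 : dist (σ x) e1 = dist x e2 := by
      rw [← σ.dist_map x e2, σ_e2]
    rw [h2] at h
    exact h.trans (hr.trans hR)
  · have h : dist (σ x) (-e1) ≤ D.R := hx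
    have h2 : dist (σ x) (-e1) = dist x (-e2) := by
      rw [← σ.dist_map x (-e2), map_neg, σ_e2]
    rw [h2] at h
    exact h.trans hR

lemma pot_val {i : Fin 5} {x : E3} (hx : x ∈ D.cl i) : |D.pot i x - val i| ≤ 1 / 100 := by
  fin_cases i
  · exact D.hu x hx
  · exact D.hv x hx
  · exact D.hw x hx
  · exact D.hv (σ x) hx
  · exact D.hw (σ x) hx

lemma cl_ne {i j : Fin 5} (hij : i ≠ j) {x y : E3} (hx : x ∈ D.cl i) (hy : y ∈ D.cl j) : x ≠ y := by
  intro h
  subst h
  have h1 := D.dist_cl hx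
  have h2 := D.dist_cl hy
  have h3 := one_le_dist_cen i j hij
  have h4 := dist_triangle_left (cen i) (cen j) x
  linarith

lemma cl_unique {i j : Fin 5} {x : E3} (hx : x ∈ D.cl i) (hy : x ∈ D.cl j) : i = j := by
  by_contra h
  exact D.cl_ne h hx hy rfl

lemma pair_bound {i j : Fin 5} (hij : i ≠ j) {x y : E3} (hx : x ∈ D.cl i) (hy : y ∈ D.cl j) :
    (dd i j + 1 / 50)⁻¹ ≤ ‖x - y‖⁻¹ := by
  have h1 := D.dist_cl hx
  have h2 := D.dist_cl hy
  have h3 := dist_cen_le i j
  have h4 := dist_triangle4_right x (cen i) y (cen j)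
  have h5 : 0 < ‖x - y‖ := norm_pos_iff.mpr (sub_ne_zero.mpr (D.cl_ne hij hx hy))
  have h6 : ‖x - y‖ ≤ dd i j + 1 / 50 := by
    rw [← dist_eq_norm]
    have := dist_triangle4 x (cen i) (cen j) y
    rw [dist_comm (cen j) y] at this
    linarith
  exact inv_anti₀ h5 h6

lemma bad {i j k : Fin 5} (hij : i ≠ j) (hik : i ≠ k) (hjk : j ≠ k)
    (hnum : val i + val j + val k + 3 / 100 <
      (dd i j + 1 / 50)⁻¹ + (dd i k + 1 / 50)⁻¹ + (dd j k + 1 / 50)⁻¹)
    {x y z : E3} (hx : x ∈ D.cl i) (hy : y ∈ D.cl j) (hz : z ∈ D.cl k) :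
    D.pot i x + D.pot j y + D.pot k z < cR x y z := by
  have a1 := abs_le.mp (D.pot_val hx)
  have a2 := abs_le.mp (D.pot_val hy)
  have a3 := abs_le.mp (D.pot_val hz)
  have b1 := D.pair_bound hij hx hy
  have b2 := D.pair_bound hik hx hz
  have b3 := D.pair_bound hjk hy hz
  unfold cR
  linarith

lemma val_le (i : Fin 5) : val i ≤ 3 / 2 := by
  fin_cases i <;> simp [val] <;> norm_num

lemma val_ge (i : Fin 5) : 1 / 2 ≤ val i := by
  fin_cases i <;> simp [val] <;> norm_num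

lemma same {i j k : Fin 5} (h : i = j ∨ i = k ∨ j = k)
    {x y z : E3} (hx : x ∈ D.cl i) (hy : y ∈ D.cl j) (hz : z ∈ D.cl k) :
    ENNReal.ofReal (D.pot i x + D.pot j y + D.pot k z) < coulomb x y z := by
  have a1 := abs_le.mp (D.pot_val hx)
  have a2 := abs_le.mp (D.pot_val hy)
  have a3 := abs_le.mp (D.pot_val hz)
  have v1 := val_le i
  have v2 := val_le j
  have v3 := val_le k
  have hs : D.pot i x + D.pot j y + D.pot k z < 50 := by linarith
  have h50 : ENNReal.ofReal (D.pot i x + D.pot j y + D.pot k z) < ENNReal.ofReal 50 :=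
    (ENNReal.ofReal_lt_ofReal_iff (by norm_num)).mpr hs
  refine lt_of_lt_of_le h50 ?_
  have key : ∀ (i : Fin 5) (x y : E3), x ∈ D.cl i → y ∈ D.cl i → ENNReal.ofReal 50 ≤ (edist x y)⁻¹ := by
    intro i x y hx hy
    have h1 := D.dist_cl hx
    have h2 := D.dist_cl hy
    have h3 : dist x y ≤ 1 / 50 := by
      have := dist_triangle_right x y (cen i)
      linarith
    have h4 : edist x y ≤ ENNReal.ofReal (1 / 50) := by
      rw [edist_dist]; exact ENNReal.ofReal_le_ofReal h3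
    calc ENNReal.ofReal 50 = (ENNReal.ofReal (1 / 50))⁻¹ := by
          rw [← ENNReal.ofReal_inv_of_pos (by norm_num)]; norm_num
      _ ≤ (edist x y)⁻¹ := ENNReal.inv_le_inv.mpr h4
  unfold coulomb
  rcases h with h | h | h
  · subst h; exact (key i x y hx hy).trans (le_add_right (le_add_right le_rfl))
  · subst h; exact (key i x z hx hz).trans (le_add_right (le_add_left le_rfl))
  · subst h; exact (key j y z hy hz).trans (le_add_left le_rfl)

end Data

end Vale.Agent.P121
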