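import Vale.Agent.P121.Clusters

/-! Contact set of the potentials. -/

namespace Vale.Agent.P121

open MeasureTheory Set Filter Topology
open scoped RealInnerProductSpace NNReal ENNReal

lemma cR_swap12 (x y z : E3) : cR x y z = cR y x z := by
  unfold cR; rw [norm_sub_rev x y]; ring

lemma cR_swap23 (x y z : E3) : cR x y z = cR x z y := by
  unfold cR; rw [norm_sub_rev y z]; ring

lemma cR_σ (x y z : E3) : cR (σ x) (σ y) (σ z) = cR x y z := by
  unfold cR; rw [← map_sub, ← map_sub, ← map_sub, σ.norm_map, σ.norm_map, σ.norm_map]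

lemma uu_σ (x : E3) : uu (σ x) = uu x := by
  unfold uu; rw [σ.norm_map]

lemma tri (i j k : Fin 5) : (i = j ∨ i = k ∨ j = k) ∨
    ((i ≠ j ∧ i ≠ k ∧ j ≠ k) ∧ val i + val j + val k + 3 / 100 <
      (dd i j + 1 / 50)⁻¹ + (dd i k + 1 / 50)⁻¹ + (dd j k + 1 / 50)⁻¹) ∨
    ((i, j, k) = (0, 1, 2) ∨ (i, j, k) = (0, 2, 1) ∨ (i, j, k) = (1, 0, 2) ∨
     (i, j, k) = (1, 2, 0) ∨ (i, j, k) = (2, 0, 1) ∨ (i, j, k) = (2, 1, 0)) ∨
    ((i, j, k) = (0, 3, 4) ∨ (i, j, k) = (0, 4, 3) ∨ (i, j, k) = (3, 0, 4) ∨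
     (i, j, k) = (3, 4, 0) ∨ (i, j, k) = (4, 0, 3) ∨ (i, j, k) = (4, 3, 0)) := by
  fin_cases i <;> fin_cases j <;> fin_cases k <;>
    first
    | exact Or.inl (by decide)
    | exact Or.inr (Or.inr (Or.inl (by decide)))
    | exact Or.inr (Or.inr (Or.inr (by decide)))
    | (refine Or.inr (Or.inl ⟨by decide, ?_⟩)
       simp [val, dd]
       norm_num)

namespace Data

variable (D : Data)

/-- `(a, b, c)` lies on the first sheet of the contact set -/
def Sh (a b c : E3) : Prop := b ∈ Metric.closedBall e1 D.r ∧ a = D.α b ∧ c = D.γ b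

/-- some permutation of `(x,y,z)` lies on the first sheet -/
def Sym (x y z : E3) : Prop :=
  D.Sh x y z ∨ D.Sh x z y ∨ D.Sh y x z ∨ D.Sh z x y ∨ D.Sh y z x ∨ D.Sh z y x

/-- contact set -/
def Contact (x y z : E3) : Prop := D.Sym x y z ∨ D.Sym (σ x) (σ y) (σ z)

lemma good1 {x y z : E3} (hx : x ∈ D.cl 0) (hy : y ∈ D.cl 1) (hz : z ∈ D.cl 2) :
    D.pot 0 x + D.pot 1 y + D.pot 2 z ≤ cR x y z ∧
    (D.pot 0 x + D.pot 1 y + D.pot 2 z = cR x y z → D.Sh x y z) := by
  have h1 := D.min_le y x z hy hx hz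
  have h2 := D.min_eq y x z hy hx hz
  have e : Psi y (x, z) = cR x y z - uu x - ww z := rfl
  have e0 : D.pot 0 x = uu x := rfl
  have e1' : D.pot 1 y = Psi y (D.α y, D.γ y) := rfl
  have e2' : D.pot 2 z = ww z := rfl
  rw [e0, e1', e2']
  constructor
  · linarith
  · intro h
    have h3 := h2 (by rw [e]; linarith)
    exact ⟨hy, h3.1, h3.2⟩

lemma σ_cl0 {x : E3} (hx : x ∈ D.cl 0) : σ x ∈ D.cl 0 := by
  have h : dist x 0 ≤ D.R := hx
  have : dist (σ x) 0 ≤ D.R := by
    rw [dist_zero_right, σ.norm_map, ← dist_zero_right]; exact h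
  exact this

lemma good2 {x y z : E3} (hx : x ∈ D.cl 0) (hy : y ∈ D.cl 3) (hz : z ∈ D.cl 4) :
    D.pot 0 x + D.pot 3 y + D.pot 4 z ≤ cR x y z ∧
    (D.pot 0 x + D.pot 3 y + D.pot 4 z = cR x y z → D.Sh (σ x) (σ y) (σ z)) := by
  have h := D.good1 (D.σ_cl0 hx) (y := σ y) (z := σ z) hy hz
  rw [cR_σ] at h
  have e0 : D.pot 0 (σ x) = D.pot 0 x := uu_σ x
  rw [e0] at h
  exact h

lemma all_le {i j k : Fin 5} {x y z : E3} (hx : x ∈ D.cl i) (hy : y ∈ D.cl j) (hz : z ∈ D.cl k) :
    ENNReal.ofReal (D.pot i x + D.pot j y + D.pot k z) ≤ coulomb x y z ∧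
    (ENNReal.ofReal (D.pot i x + D.pot j y + D.pot k z) = coulomb x y z → D.Contact x y z) := by
  -- a real statement suffices when the clusters are distinct
  have red : i ≠ j → i ≠ k → j ≠ k →
      (D.pot i x + D.pot j y + D.pot k z ≤ cR x y z ∧
        (D.pot i x + D.pot j y + D.pot k z = cR x y z → D.Contact x y z)) →
      ENNReal.ofReal (D.pot i x + D.pot j y + D.pot k z) ≤ coulomb x y z ∧
      (ENNReal.ofReal (D.pot i x + D.pot j y + D.pot k z) = coulomb x y z → D.Contact x y z) := by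
    intro h1 h2 h3 h
    rw [coulomb_eq (D.cl_ne h1 hx hy) (D.cl_ne h2 hx hz) (D.cl_ne h3 hy hz)]
    refine ⟨ENNReal.ofReal_le_ofReal h.1, fun he => h.2 ?_⟩
    have a1 := abs_le.mp (D.pot_val hx)
    have a2 := abs_le.mp (D.pot_val hy)
    have a3 := abs_le.mp (D.pot_val hz)
    have v1 := val_ge i
    have v2 := val_ge j
    have v3 := val_ge k
    exact (ENNReal.ofReal_eq_ofReal_iff (by linarith) (by unfold cR; positivity)).mp he
  rcases tri i j k with h | ⟨⟨h1, h2, h3⟩, h⟩ | h | h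
  · have := D.same h hx hy hz
    exact ⟨this.le, fun he => absurd he this.ne⟩
  · have hb := D.bad h1 h2 h3 h hx hy hz
    exact red h1 h2 h3 ⟨hb.le, fun he => absurd he hb.ne⟩
  · rcases h with h | h | h | h | h | h <;> simp only [Prod.mk.injEq] at h <;>
      obtain ⟨rfl, rfl, rfl⟩ := h <;> refine red (by decide) (by decide) (by decide) ?_
    · have g := D.good1 hx hy hz
      exact ⟨g.1, fun he => Or.inl (Or.inl (g.2 he))⟩
    · have g := D.good1 hx hz hy
      rw [cR_swap23] at g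
      refine ⟨by linarith [g.1], fun he => Or.inl (Or.inr (Or.inl (g.2 (by linarith))))⟩
    · have g := D.good1 hy hx hz
      rw [cR_swap12] at g
      refine ⟨by linarith [g.1], fun he => Or.inl (Or.inr (Or.inr (Or.inl (g.2 (by linarith)))))⟩
    · -- x = b, y = c, z = a
      have g := D.good1 hz hx hy
      rw [cR_swap12, cR_swap23] at g
      refine ⟨by linarith [g.1], fun he =>
        Or.inl (Or.inr (Or.inr (Or.inr (Or.inl (g.2 (by linarith))))))⟩
    · -- x = c, y = a, z = b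
      have g := D.good1 hy hz hx
      rw [cR_swap23, cR_swap12] at g
      refine ⟨by linarith [g.1], fun he =>
        Or.inl (Or.inr (Or.inr (Or.inr (Or.inr (Or.inl (g.2 (by linarith)))))))⟩
    · -- x = c, y = b, z = a
      have g := D.good1 hz hy hx
      rw [cR_swap12, cR_swap23, cR_swap12] at g
      refine ⟨by linarith [g.1], fun he =>
        Or.inl (Or.inr (Or.inr (Or.inr (Or.inr (Or.inr (g.2 (by linarith)))))))⟩
  · rcases h with h | h | h | h | h | h <;> simp only [Prod.mk.injEq] at h <;>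
      obtain ⟨rfl, rfl, rfl⟩ := h <;> refine red (by decide) (by decide) (by decide) ?_
    · have g := D.good2 hx hy hz
      exact ⟨g.1, fun he => Or.inr (Or.inl (g.2 he))⟩
    · have g := D.good2 hx hz hy
      rw [cR_swap23] at g
      refine ⟨by linarith [g.1], fun he => Or.inr (Or.inr (Or.inl (g.2 (by linarith))))⟩
    · have g := D.good2 hy hx hz
      rw [cR_swap12] at g
      refine ⟨by linarith [g.1], fun he => Or.inr (Or.inr (Or.inr (Or.inl (g.2 (by linarith)))))⟩
    · have g := D.good2 hz hx hy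
      rw [cR_swap12, cR_swap23] at g
      refine ⟨by linarith [g.1], fun he =>
        Or.inr (Or.inr (Or.inr (Or.inr (Or.inl (g.2 (by linarith))))))⟩
    · have g := D.good2 hy hz hx
      rw [cR_swap23, cR_swap12] at g
      refine ⟨by linarith [g.1], fun he =>
        Or.inr (Or.inr (Or.inr (Or.inr (Or.inr (Or.inl (g.2 (by linarith)))))))⟩
    · have g := D.good2 hz hy hx
      rw [cR_swap12, cR_swap23, cR_swap12] at g
      refine ⟨by linarith [g.1], fun he =>
        Or.inr (Or.inr (Or.inr (Or.inr (Or.inr (Or.inr (g.2 (by linarith)))))))⟩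

end Data

end Vale.Agent.P121
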