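import Vale.Agent.P121.Local

/-! Push-forward of smooth densities under local diffeomorphisms, analyticity of the implicit
function. -/

namespace Vale.Agent.P121

open MeasureTheory Set Filter Topology
open scoped RealInnerProductSpace NNReal ENNReal ContDiff

lemma contDiffAt_kf {x : E3} (hx : x ≠ 0) : ContDiffAt ℝ ω kf x := by
  have h1 : ContDiffAt ℝ ω (fun y : E3 => ‖y‖) x := contDiffAt_norm ℝ hx
  have h2 : ContDiffAt ℝ ω (fun y : E3 => (‖y‖ ^ 3)⁻¹) x :=
    (h1.pow 3).inv (pow_ne_zero 3 (norm_ne_zero_iff.mpr hx))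
  exact h2.smul contDiffAt_id

lemma contDiffAt_GG : ContDiffAt ℝ ω GG p0 := by
  have hA : ContDiffAt ℝ ω (fun p : E3 × E3 × E3 => p.2.1) p0 := by fun_prop
  have hB : ContDiffAt ℝ ω (fun p : E3 × E3 × E3 => p.1) p0 := by fun_prop
  have hC : ContDiffAt ℝ ω (fun p : E3 × E3 × E3 => p.2.2) p0 := by fun_prop
  have hAB : ContDiffAt ℝ ω (fun p : E3 × E3 × E3 => kf (p.2.1 - p.1)) p0 := by
    refine ContDiffAt.comp (g := kf) p0 ?_ (hA.sub hB)
    refine contDiffAt_kf ?_
    simp [p0, e1_ne]
  have hAC : ContDiffAt ℝ ω (fun p : E3 × E3 × E3 => kf (p.2.1 - p.2.2)) p0 := by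
    refine ContDiffAt.comp (g := kf) p0 ?_ (hA.sub hC)
    refine contDiffAt_kf ?_
    simp [p0, e1_ne]
  have hBC : ContDiffAt ℝ ω (fun p : E3 × E3 × E3 => kf (p.1 - p.2.2)) p0 := by
    refine ContDiffAt.comp (g := kf) p0 ?_ (hB.sub hC)
    refine contDiffAt_kf ?_
    have : e1 + e1 ≠ 0 := by
      rw [← two_smul ℝ]; exact smul_ne_zero two_ne_zero e1_ne
    simpa [p0] using this
  have hK : ContDiffAt ℝ ω (fun p : E3 × E3 × E3 => KK (p.2.2 + e1)) p0 :=
    ContDiffAt.comp (g := KK) p0 KK.contDiff.contDiffAt (hC.add contDiffAt_const)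
  exact ((hAB.neg.sub hAC).add (hA.const_smul (4 : ℝ))).prodMk
    ((((hAC.add hBC).sub contDiffAt_const).add (hC.add contDiffAt_const)).add hK)

lemma MM_invertible' : (GG' ∘L .inr ℝ E3 (E3 × E3)).IsInvertible := MM_invertible

lemma contDiffAt_zz : ContDiffAt ℝ ω zz e1 := by
  have hz : zz = hasStrict_GG.implicitFunctionOfProdDomain (u := p0) MM_invertible' := rfl
  rw [hz, HasStrictFDerivAt.implicitFunctionOfProdDomain_def]
  set φ := hasStrict_GG.implicitFunctionDataOfProdDomain (u := p0) MM_invertible'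
  have : ContDiffAt ℝ ω φ.implicitFunction.uncurry (GG p0, p0.1) := by
    simpa [φ] using φ.contDiffAt_implicitFunction
      (by simpa [φ] using contDiffAt_GG) (by simpa [φ] using contDiffAt_fst) (by simp)
  have h2 : ContDiffAt ℝ ω (fun x : E3 => (GG p0, x)) e1 := by fun_prop
  have h3 : ContDiffAt ℝ ω (fun x : E3 => φ.implicitFunction.uncurry (GG p0, x)) e1 :=
    ContDiffAt.comp (g := φ.implicitFunction.uncurry) e1 this h2
  exact h3.snd

lemma contDiffAt_det {f : E3 → E3} {x : E3} (hf : ContDiffAt ℝ ω f x) :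
    ContDiffAt ℝ ∞ (fun y => (fderiv ℝ f y).det) x := by
  have h1 : ContDiffAt ℝ ∞ (fderiv ℝ f) x := hf.fderiv_right (by simp)
  set b := (EuclideanSpace.basisFun (Fin 3) ℝ).toBasis
  have h2 : (fun y => (fderiv ℝ f y).det) = fun y =>
      (Matrix.of fun i j => (fderiv ℝ f y (b j)) i).det := by
    funext y
    rw [ContinuousLinearMap.det, ← LinearMap.det_toMatrix b]
    congr 1
    ext i j
    simp [LinearMap.toMatrix_apply, b]
  rw [h2]
  simp only [Matrix.det_apply, Units.smul_def, zsmul_eq_mul]
  refine ContDiffAt.sum fun s _ => ?_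
  refine contDiffAt_const.mul ?_
  refine contDiffAt_prod fun i _ => ?_
  simp only [Matrix.of_apply]
  have h3 : ContDiffAt ℝ ∞ (fun y => fderiv ℝ f y (b i)) x := h1.clm_apply contDiffAt_const
  exact (contDiffAt_euclidean.mp h3) _

/-- smooth densities are mapped to smooth densities -/
def SmoothPush (f : E3 → E3) (r : ℝ) : Prop :=
  ∀ g : E3 → ℝ, ContDiff ℝ ∞ g → tsupport g ⊆ Metric.ball e1 r → (∀ x, 0 ≤ g x) →
    ∃ h : E3 → ℝ, ContDiff ℝ ∞ h ∧ HasCompactSupport h ∧ (∀ x, 0 ≤ h x) ∧
      (volume.withDensity (fun x => ENNReal.ofReal (g x))).map f =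
        volume.withDensity (fun x => ENNReal.ofReal (h x))

lemma smoothPush_of (e : OpenPartialHomeomorph E3 E3) {f : E3 → E3} {r : ℝ} (hf : Measurable f)
    (hsrc : Metric.ball e1 r ⊆ e.source) (hfe : ∀ x ∈ Metric.ball e1 r, f x = e x)
    (hsm : ∀ x ∈ Metric.ball e1 r, ContDiffAt ℝ ω e x)
    (hdet : ∀ x ∈ Metric.ball e1 r, (fderiv ℝ e x).det ≠ 0) : SmoothPush f r := by
  intro g hg hgs hg0
  classical
  set G : E3 → ℝ := fun x => g x * |(fderiv ℝ e x).det|⁻¹ with hG
  have hG0 : ∀ x, 0 ≤ G x := fun x => mul_nonneg (hg0 x) (by positivity)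
  have hGs : ∀ x, x ∉ tsupport g → G x = 0 := fun x hx => by
    rw [hG]; simp only; rw [image_eq_zero_of_notMem_tsupport hx, zero_mul]
  set h : E3 → ℝ := fun y => if y ∈ e.target then G (e.symm y) else 0 with hh
  have hcomp : IsCompact (tsupport g) :=
    (isCompact_closedBall e1 r).of_isClosed_subset (isClosed_tsupport g)
      (hgs.trans Metric.ball_subset_closedBall)
  have hKc : IsCompact (e '' tsupport g) :=
    hcomp.image_of_continuousOn (e.continuousOn.mono (hgs.trans hsrc))
  have hh0 : ∀ y, y ∉ e '' tsupport g → h y = 0 := by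
    intro y hy
    rw [hh]
    simp only
    split_ifs with ht
    · refine hGs _ fun hx => hy ⟨e.symm y, hx, e.right_inv ht⟩
    · rfl
  refine ⟨h, ?_, ?_, ?_, ?_⟩
  · rw [contDiff_iff_contDiffAt]
    intro y
    by_cases hy : y ∈ e '' tsupport g
    · obtain ⟨x, hx, rfl⟩ := hy
      have hxb : x ∈ Metric.ball e1 r := hgs hx
      have hxs : x ∈ e.source := hsrc hxb
      have hyt : e x ∈ e.target := e.map_source hxs
      have hev : h =ᶠ[𝓝 (e x)] fun y => G (e.symm y) := by
        filter_upwards [e.open_target.mem_nhds hyt] with y hy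
        rw [hh]; simp only; rw [if_pos hy]
      refine ContDiffAt.congr_of_eventuallyEq ?_ hev
      have hd : HasFDerivAt e (((fderiv ℝ e x).toContinuousLinearEquivOfDetNeZero (hdet x hxb) :
          E3 ≃L[ℝ] E3) : E3 →L[ℝ] E3) (e.symm (e x)) := by
        rw [e.left_inv hxs]
        have h1 := ((hsm x hxb).differentiableAt (by simp)).hasFDerivAt
        rw [ContinuousLinearMap.coe_toContinuousLinearEquivOfDetNeZero]
        exact h1
      have hsy : ContDiffAt ℝ ∞ e.symm (e x) := by
        refine e.contDiffAt_symm hyt hd ?_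
        rw [e.left_inv hxs]
        exact (hsm x hxb).of_le (by simp)
      have hGx : ContDiffAt ℝ ∞ G (e.symm (e x)) := by
        rw [e.left_inv hxs]
        have h1 := contDiffAt_det (hsm x hxb)
        have h2 : ContDiffAt ℝ ∞ (fun y => |(fderiv ℝ e y).det|) x :=
          ContDiffAt.comp (g := fun t : ℝ => |t|) x (contDiffAt_abs (hdet x hxb)) h1
        exact hg.contDiffAt.mul (h2.inv (abs_ne_zero.mpr (hdet x hxb)))
      exact ContDiffAt.comp (e x) hGx hsy
    · have hev : h =ᶠ[𝓝 y] fun _ => 0 := by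
        filter_upwards [hKc.isClosed.isOpen_compl.mem_nhds hy] with y' hy'
        exact hh0 y' hy'
      exact contDiffAt_const.congr_of_eventuallyEq hev
  · exact HasCompactSupport.intro hKc hh0
  · intro y
    rw [hh]; simp only
    split_ifs
    · exact hG0 _
    · exact le_rfl
  · ext E hE
    rw [Measure.map_apply hf hE, withDensity_apply _ (hf hE), withDensity_apply _ hE]
    set s : Set E3 := f ⁻¹' E ∩ Metric.ball e1 r with hs
    have hsm' : MeasurableSet s := (hf hE).inter Metric.isOpen_ball.measurableSet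
    have l1 : ∫⁻ x in f ⁻¹' E, ENNReal.ofReal (g x) = ∫⁻ x in s, ENNReal.ofReal (g x) := by
      rw [hs]
      rw [← lintegral_indicator (hf hE), ← lintegral_indicator hsm']
      congr 1
      funext x
      by_cases hx : x ∈ Metric.ball e1 r
      · by_cases hx' : x ∈ f ⁻¹' E
        · have hxs : x ∈ s := ⟨hx', hx⟩
          rw [indicator_of_mem hx', indicator_of_mem hxs]
        · have hxs : x ∉ s := fun h => hx' h.1
          rw [indicator_of_notMem hx', indicator_of_notMem hxs]
      · have : g x = 0 := image_eq_zero_of_notMem_tsupport fun h => hx (hgs h)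
        have hxs : x ∉ s := fun h => hx h.2
        rw [indicator_of_notMem hxs]
        by_cases hx' : x ∈ f ⁻¹' E
        · rw [indicator_of_mem hx', this]; simp
        · rw [indicator_of_notMem hx']
    have himg : e '' s ⊆ E := by
      rintro _ ⟨x, hx, rfl⟩
      rw [← hfe x hx.2]; exact hx.1
    have himgm : MeasurableSet (e '' s) := by
      refine hsm'.image_of_continuousOn_injOn (e.continuousOn.mono (inter_subset_right.trans hsrc))
        (e.injOn.mono (inter_subset_right.trans hsrc))
    have l2 : ∫⁻ y in E, ENNReal.ofReal (h y) = ∫⁻ y in e '' s, ENNReal.ofReal (h y) := by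
      rw [← lintegral_indicator hE, ← lintegral_indicator himgm]
      congr 1
      funext y
      by_cases hy : y ∈ e '' s
      · rw [indicator_of_mem hy, indicator_of_mem (himg hy)]
      · rw [indicator_of_notMem hy]
        by_cases hyE : y ∈ E
        · rw [indicator_of_mem hyE]
          have : h y = 0 := by
            refine hh0 y ?_
            rintro ⟨x, hx, rfl⟩
            refine hy ⟨x, ⟨?_, hgs hx⟩, rfl⟩
            change f x ∈ E
            rw [hfe x (hgs hx)]; exact hyE
          rw [this]; simp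
        · rw [indicator_of_notMem hyE]
    rw [l1, l2, lintegral_image_eq_lintegral_abs_det_fderiv_mul volume hsm'
      (f' := fun x => fderiv ℝ e x) ?_ (e.injOn.mono (inter_subset_right.trans hsrc))]
    · refine setLIntegral_congr_fun hsm' ?_
      intro x hx
      simp only
      have hxs : x ∈ e.source := hsrc hx.2
      have : h (e x) = G x := by
        rw [hh]; simp only
        rw [if_pos (e.map_source hxs), e.left_inv hxs]
      rw [this, hG]
      simp only
      rw [← ENNReal.ofReal_mul (abs_nonneg _)]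
      congr 1
      have := hdet x hx.2
      field_simp
    · intro x hx
      exact ((hsm x hx.2).differentiableAt (by simp)).hasFDerivAt.hasFDerivWithinAt

end Vale.Agent.P121
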