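import Vale.Agent.P121.Potential
import Vale.Agent.P121.Smooth

/-! Existence of the local data used in the construction. -/

namespace Vale.Agent.P121

open MeasureTheory Set Filter Topology
open scoped RealInnerProductSpace NNReal ENNReal ContDiff

lemma zz_at : zz e1 = (0, -e1) := by
  have h := zz_strict'.continuousAt.tendsto
  exact tendsto_nhds_unique h zz_tendsto

lemma hasStrict_α : HasStrictFDerivAt (fun b => (zz b).1) LA e1 :=
  (hasStrictFDerivAt_fst.comp e1 zz_strict').congr_fderiv (by ext1 ξ; rfl)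

lemma hasStrict_γ : HasStrictFDerivAt (fun b => (zz b).2) (ContinuousLinearMap.id ℝ E3) e1 :=
  (hasStrictFDerivAt_snd.comp e1 zz_strict').congr_fderiv (by ext1 ξ; rfl)

/-- the inverse of `LA` -/
noncomputable def LAinv : E3 →L[ℝ] E3 := -ContinuousLinearMap.id ℝ E3 + (3 : ℝ) • rk1 e1

@[simp] lemma LAinv_apply (ξ : E3) : LAinv ξ = -ξ + (3 * ⟪e1, ξ⟫) • e1 := by
  simp [LAinv, smul_smul]

/-- `LA` as an equivalence -/
noncomputable def LAe : E3 ≃L[ℝ] E3 :=
  ContinuousLinearEquiv.equivOfInverse LA LAinv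
    (by intro ξ; ext i; fin_cases i <;> simp [inner3] <;> ring)
    (by intro ξ; ext i; fin_cases i <;> simp [inner3] <;> ring)

lemma LAe_coe : (LAe : E3 →L[ℝ] E3) = LA := by
  ext1 ξ; rfl

lemma det_LA_ne : LA.det ≠ 0 := by
  rw [← LAe_coe]
  have := LinearEquiv.isUnit_det' LAe.toLinearEquiv
  exact this.ne_zero

lemma det_id_ne : (ContinuousLinearMap.id ℝ E3).det ≠ 0 := by
  have : (ContinuousLinearMap.id ℝ E3).det = 1 := by
    simp [ContinuousLinearMap.det]
  rw [this]; norm_num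

/-- volume distortion near a point of strict differentiability with non-vanishing determinant -/
lemma vol_distort {f : E3 → E3} {L : E3 →L[ℝ] E3} {x : E3} (hf : HasStrictFDerivAt f L x)
    (hL : L.det ≠ 0) : ∃ K : ℝ≥0, ∃ s ∈ 𝓝 x, ∀ t ⊆ s,
      volume t ≤ K * volume (f '' t) ∧ volume (f '' t) ≤ K * volume t := by
  set d : ℝ≥0 := ⟨|L.det|, abs_nonneg _⟩ with hd
  have hd0 : 0 < d := by
    rw [hd]; exact_mod_cast abs_pos.mpr hL
  have hofR : ENNReal.ofReal |L.det| = (d : ℝ≥0∞) := by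
    rw [ENNReal.ofReal]; congr 1
    exact Real.toNNReal_of_nonneg (abs_nonneg _)
  have h1 := addHaar_image_le_mul_of_det_lt (volume : Measure E3) L (m := d + 1)
    (by rw [hofR]; exact_mod_cast lt_add_one d)
  have h2 := mul_le_addHaar_image_of_lt_det (volume : Measure E3) L (m := d / 2)
    (by rw [hofR]; exact_mod_cast NNReal.half_lt_self hd0.ne')
  obtain ⟨δ, ⟨⟨hδ1, hδ2⟩, hδ0⟩⟩ := ((h1.and h2).and self_mem_nhdsWithin).exists
  obtain ⟨s, hs, happ⟩ := hf.approximates_deriv_on_nhds (c := δ) (Or.inr hδ0)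
  refine ⟨max (d + 1) (d / 2)⁻¹, s, hs, fun t ht => ⟨?_, ?_⟩⟩
  · have h3 := hδ2 t f (happ.mono_set ht)
    have hd2 : (d / 2 : ℝ≥0) ≠ 0 := by positivity
    have h4 : volume t ≤ ((d / 2)⁻¹ : ℝ≥0) * volume (f '' t) := by
      rw [ENNReal.coe_inv hd2, mul_comm, ← div_eq_mul_inv]
      rw [ENNReal.le_div_iff_mul_le (Or.inl (by exact_mod_cast hd2)) (Or.inl ENNReal.coe_ne_top)]
      rwa [mul_comm]
    refine h4.trans ?_
    gcongr
    exact_mod_cast le_max_right _ _
  · have h3 := hδ1 t f (happ.mono_set ht)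
    refine h3.trans ?_
    gcongr
    exact_mod_cast le_max_left _ _

/-- The local data. -/
structure Data where
  R : ℝ
  r : ℝ
  α : E3 → E3
  γ : E3 → E3
  K : ℝ≥0
  hr : 0 < r
  hrR : r ≤ R
  hR : R ≤ 1 / 100
  mα : Measurable α
  mγ : Measurable γ
  αA : ∀ b, dist b e1 ≤ r → dist (α b) 0 ≤ R
  γC : ∀ b, dist b e1 ≤ r → dist (γ b) (-e1) ≤ R
  γinj : InjOn γ (Metric.closedBall e1 r)
  min_le : ∀ b a c, dist b e1 ≤ r → dist a 0 ≤ R → dist c (-e1) ≤ R →
    Psi b (α b, γ b) ≤ Psi b (a, c)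
  min_eq : ∀ b a c, dist b e1 ≤ r → dist a 0 ≤ R → dist c (-e1) ≤ R →
    Psi b (a, c) = Psi b (α b, γ b) → a = α b ∧ c = γ b
  hu : ∀ a, dist a 0 ≤ R → |uu a - 3 / 2| ≤ 1 / 100
  hw : ∀ c, dist c (-e1) ≤ R → |ww c - 1 / 2| ≤ 1 / 100
  hv : ∀ b, dist b e1 ≤ r → |Psi b (α b, γ b) - 1 / 2| ≤ 1 / 100
  volα : ∀ t ⊆ Metric.closedBall e1 r, volume t ≤ K * volume (α '' t)
  volα' : ∀ t ⊆ Metric.closedBall e1 r, volume (α '' t) ≤ K * volume t
  volγ : ∀ t ⊆ Metric.closedBall e1 r, volume t ≤ K * volume (γ '' t)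
  open_α : ∀ U ∈ 𝓝 e1, α '' (U ∩ Metric.closedBall e1 r) ∈ 𝓝 (0 : E3)
  smα : SmoothPush α r
  smγ : SmoothPush γ r

lemma Psi_base : Psi e1 (0, -e1) = 1 / 2 := by
  have h1 : ‖e1 - -e1‖ = 2 := by
    rw [sub_neg_eq_add, ← two_smul ℝ, norm_smul, norm_e1]; norm_num
  simp only [Psi, cR, uu, ww]
  rw [h1]
  simp [norm_e1]
  norm_num

lemma continuousAt_Psi_zz : ContinuousAt (fun b => Psi b (zz b)) e1 := by
  have hz : ContinuousAt zz e1 := zz_strict'.continuousAt
  have hz1 : ContinuousAt (fun b => (zz b).1) e1 := hz.fst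
  have hz2 : ContinuousAt (fun b => (zz b).2) e1 := hz.snd
  have i1 : ContinuousAt (fun b => ‖(zz b).1 - b‖⁻¹) e1 := by
    refine ContinuousAt.inv₀ (f := fun b => ‖(zz b).1 - b‖) (hz1.sub continuousAt_id).norm ?_
    simp only [zz_at]; simp [norm_e1]
  have i2 : ContinuousAt (fun b => ‖(zz b).1 - (zz b).2‖⁻¹) e1 := by
    refine ContinuousAt.inv₀ (f := fun b => ‖(zz b).1 - (zz b).2‖) (hz1.sub hz2).norm ?_
    simp only [zz_at]; simp [norm_e1]
  have i3 : ContinuousAt (fun b => ‖b - (zz b).2‖⁻¹) e1 := by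
    refine ContinuousAt.inv₀ (f := fun b => ‖b - (zz b).2‖) (continuousAt_id.sub hz2).norm ?_
    simp only [zz_at]
    have h1 : ‖e1 - -e1‖ = 2 := by
      rw [sub_neg_eq_add, ← two_smul ℝ, norm_smul, norm_e1]; norm_num
    rw [h1]; norm_num
  have i4 : ContinuousAt (fun b => uu (zz b).1) e1 := by
    unfold uu
    exact continuousAt_const.sub (continuousAt_const.mul (hz1.norm.pow 2))
  have i5 : ContinuousAt (fun b => ww (zz b).2) e1 := by
    unfold ww
    have h1 : ContinuousAt (fun b => (zz b).2 + e1) e1 := hz2.add continuousAt_const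
    have h2 : ContinuousAt (fun b => ⟪e1, (zz b).2 + e1⟫) e1 := continuousAt_const.inner (𝕜 := ℝ) h1
    exact ((continuousAt_const.add (continuousAt_const.mul h2)).sub (h1.norm.pow 2)).add
      (continuousAt_const.mul (h2.pow 2))
  unfold Psi cR
  exact (((i1.add i2).add i3).sub i4).sub i5

theorem exists_data : Nonempty Data := by
  obtain ⟨R0, hR0, hR01, hmin⟩ := strict_min
  -- continuity of the potentials
  have cu : ∀ᶠ a in 𝓝 (0 : E3), |uu a - 3 / 2| < 1 / 100 := by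
    have hc : ContinuousAt (fun a : E3 => uu a - 3 / 2) 0 := by
      unfold uu; fun_prop
    have h := hc.abs.eventually_lt (continuousAt_const (y := (1 / 100 : ℝ)))
      (by simp [uu])
    exact h
  have cw : ∀ᶠ c in 𝓝 (-e1 : E3), |ww c - 1 / 2| < 1 / 100 := by
    have hc : ContinuousAt (fun c : E3 => ww c - 1 / 2) (-e1) := by
      unfold ww; fun_prop
    have h := hc.abs.eventually_lt (continuousAt_const (y := (1 / 100 : ℝ)))
      (by simp [ww])
    exact h
  obtain ⟨R1, hR1, hu⟩ := Metric.eventually_nhds_iff.mp cu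
  obtain ⟨R2, hR2, hw⟩ := Metric.eventually_nhds_iff.mp cw
  set R := min R0 (min (R1 / 2) (R2 / 2)) with hR
  have hRpos : 0 < R := by rw [hR]; positivity
  have hRR0 : R ≤ R0 := min_le_left _ _
  have hRR1 : R < R1 := lt_of_le_of_lt ((min_le_right _ _).trans (min_le_left _ _)) (by linarith)
  have hRR2 : R < R2 := lt_of_le_of_lt ((min_le_right _ _).trans (min_le_right _ _)) (by linarith)
  -- choose r
  have cv : ∀ᶠ b in 𝓝 e1, |Psi b (zz b) - 1 / 2| < 1 / 100 := by
    have h := (continuousAt_Psi_zz.sub (continuousAt_const (y := (1 / 2 : ℝ)))).abs.eventually_lt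
      (continuousAt_const (y := (1 / 100 : ℝ))) (by simp only [Pi.sub_apply, zz_at, Psi_base]; norm_num)
    exact h
  have cz : ∀ᶠ b in 𝓝 e1, dist (zz b) (0, -e1) < R := by
    have := zz_tendsto.eventually (Metric.ball_mem_nhds (0, -e1) hRpos)
    exact this
  obtain ⟨K1, s1, hs1, hK1⟩ := vol_distort hasStrict_α det_LA_ne
  obtain ⟨K2, s2, hs2, hK2⟩ := vol_distort hasStrict_γ det_id_ne
  have hαs : HasStrictFDerivAt (fun b => (zz b).1) (LAe : E3 →L[ℝ] E3) e1 := by
    rw [LAe_coe]; exact hasStrict_α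
  have hγs : HasStrictFDerivAt (fun b => (zz b).2)
      ((ContinuousLinearEquiv.refl ℝ E3 : E3 ≃L[ℝ] E3) : E3 →L[ℝ] E3) e1 := hasStrict_γ
  set eα : OpenPartialHomeomorph E3 E3 := hαs.toOpenPartialHomeomorph _ with heα
  set eγ : OpenPartialHomeomorph E3 E3 := hγs.toOpenPartialHomeomorph _ with heγ
  have heαc : (eα : E3 → E3) = fun b => (zz b).1 := hαs.toOpenPartialHomeomorph_coe
  have heγc : (eγ : E3 → E3) = fun b => (zz b).2 := hγs.toOpenPartialHomeomorph_coe
  have cω : ∀ᶠ b in 𝓝 e1, ContDiffAt ℝ ω zz b := contDiffAt_zz.eventually (by simp)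
  have csα : ∀ᶠ b in 𝓝 e1, b ∈ eα.source :=
    eα.open_source.mem_nhds hαs.mem_toOpenPartialHomeomorph_source
  have csγ : ∀ᶠ b in 𝓝 e1, b ∈ eγ.source :=
    eγ.open_source.mem_nhds hγs.mem_toOpenPartialHomeomorph_source
  have cdα : ∀ᶠ b in 𝓝 e1, (fderiv ℝ eα b).det ≠ 0 := by
    rw [heαc]
    have h1 : ContDiffAt ℝ ω (fun b => (zz b).1) e1 := contDiffAt_zz.fst
    refine (contDiffAt_det h1).continuousAt.eventually_ne ?_
    rw [hasStrict_α.hasFDerivAt.fderiv]; exact det_LA_ne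
  have cdγ : ∀ᶠ b in 𝓝 e1, (fderiv ℝ eγ b).det ≠ 0 := by
    rw [heγc]
    have h1 : ContDiffAt ℝ ω (fun b => (zz b).2) e1 := contDiffAt_zz.snd
    refine (contDiffAt_det h1).continuousAt.eventually_ne ?_
    rw [hasStrict_γ.hasFDerivAt.fderiv]; exact det_id_ne
  have csm : ∀ᶠ b in 𝓝 e1, (ContDiffAt ℝ ω zz b ∧ b ∈ eα.source ∧ b ∈ eγ.source) ∧
      (fderiv ℝ eα b).det ≠ 0 ∧ (fderiv ℝ eγ b).det ≠ 0 :=
    (cω.and (csα.and csγ)).and (cdα.and cdγ)
  obtain ⟨s3, hs3, hinj⟩ : ∃ s ∈ 𝓝 e1, InjOn (fun b => (zz b).2) s := by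
    refine ⟨eγ.source, eγ.open_source.mem_nhds hγs.mem_toOpenPartialHomeomorph_source, ?_⟩
    have := eγ.injOn
    rwa [heγc] at this
  obtain ⟨s4, hs4, happ⟩ := zz_strict'.approximates_deriv_on_nhds (c := 1) (Or.inr one_pos)
  have call : ∀ᶠ b in 𝓝 e1, (|Psi b (zz b) - 1 / 2| < 1 / 100 ∧ dist (zz b) (0, -e1) < R) ∧
      (GG (b, zz b) = 0 ∧ b ∈ s1) ∧ (b ∈ s2 ∧ b ∈ s3) ∧ b ∈ s4 :=
    (cv.and cz).and ((zz_eq.and hs1).and ((Filter.Eventually.and hs2 hs3).and hs4))
  obtain ⟨r0, hr0, hall'⟩ := Metric.eventually_nhds_iff.mp (call.and csm)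
  have hall : ∀ ⦃b⦄, dist b e1 < r0 → _ := fun b hb => (hall' hb).1
  have hall2 : ∀ ⦃b⦄, dist b e1 < r0 → _ := fun b hb => (hall' hb).2
  set r := min (r0 / 2) R with hr
  have hrpos : 0 < r := by rw [hr]; positivity
  have hrR : r ≤ R := min_le_right _ _
  have hrr0 : r < r0 := lt_of_le_of_lt (min_le_left _ _) (by linarith)
  have key : ∀ b, dist b e1 ≤ r → (|Psi b (zz b) - 1 / 2| < 1 / 100 ∧ dist (zz b) (0, -e1) < R) ∧
      (GG (b, zz b) = 0 ∧ b ∈ s1) ∧ (b ∈ s2 ∧ b ∈ s3) ∧ b ∈ s4 :=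
    fun b hb => hall (lt_of_le_of_lt hb hrr0)
  set B := Metric.closedBall e1 r with hB
  have hzc : ContinuousOn zz B := happ.continuousOn.mono fun b hb => (key b hb).2.2.2
  classical
  set α : E3 → E3 := B.piecewise (fun b => (zz b).1) (fun _ => 0) with hα
  set γ : E3 → E3 := B.piecewise (fun b => (zz b).2) (fun _ => 0) with hγ
  have hαe : ∀ b ∈ B, α b = (zz b).1 := fun b hb => Set.piecewise_eq_of_mem _ _ _ hb
  have hγe : ∀ b ∈ B, γ b = (zz b).2 := fun b hb => Set.piecewise_eq_of_mem _ _ _ hb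
  have hzz : ∀ b ∈ B, (α b, γ b) = zz b := fun b hb => by rw [hαe b hb, hγe b hb]
  have hd : ∀ b ∈ B, dist (zz b).1 0 ≤ R ∧ dist (zz b).2 (-e1) ≤ R := by
    intro b hb
    have h := (key b hb).1.2.le
    rw [Prod.dist_eq] at h
    exact ⟨(le_max_left _ _).trans h, (le_max_right _ _).trans h⟩
  have hmin' : ∀ b a c, dist b e1 ≤ r → dist a 0 ≤ R → dist c (-e1) ≤ R → (a, c) ≠ zz b →
      Psi b (zz b) < Psi b (a, c) := by
    intro b a c hb ha hc hne
    refine hmin b (a, c) (zz b) (hb.trans (hrR.trans hRR0)) ?_ ?_ (key b hb).2.1.1 hne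
    · rw [Prod.dist_eq]; exact max_le (ha.trans hRR0) (hc.trans hRR0)
    · exact (key b hb).1.2.le.trans hRR0
  have himgα : ∀ t ⊆ B, α '' t = (fun b => (zz b).1) '' t := fun t ht =>
    Set.image_congr fun b hb => hαe b (ht hb)
  have himgγ : ∀ t ⊆ B, γ '' t = (fun b => (zz b).2) '' t := fun t ht =>
    Set.image_congr fun b hb => hγe b (ht hb)
  refine ⟨{ R := R, r := r, α := α, γ := γ, K := max K1 K2, hr := hrpos, hrR := hrR,
            hR := hRR0.trans hR01, mα := ?_, mγ := ?_, αA := ?_, γC := ?_, γinj := ?_,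
            min_le := ?_, min_eq := ?_, hu := ?_, hw := ?_, hv := ?_, volα := ?_, volα' := ?_,
            volγ := ?_, open_α := ?_, smα := ?_, smγ := ?_ }⟩
  · exact ContinuousOn.measurable_piecewise (continuous_fst.comp_continuousOn hzc)
      continuousOn_const Metric.isClosed_closedBall.measurableSet
  · exact ContinuousOn.measurable_piecewise (continuous_snd.comp_continuousOn hzc)
      continuousOn_const Metric.isClosed_closedBall.measurableSet
  · intro b hb; rw [hαe b hb]; exact (hd b hb).1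
  · intro b hb; rw [hγe b hb]; exact (hd b hb).2
  · intro b hb b' hb' h
    rw [hγe b hb, hγe b' hb'] at h
    exact hinj (key b hb).2.2.1.2 (key b' hb').2.2.1.2 h
  · intro b a c hb ha hc
    rw [hzz b hb]
    by_cases h : (a, c) = zz b
    · rw [h]
    · exact (hmin' b a c hb ha hc h).le
  · intro b a c hb ha hc h
    rw [hzz b hb] at h
    by_cases h' : (a, c) = zz b
    · rw [hαe b hb, hγe b hb, ← h']; exact ⟨rfl, rfl⟩
    · exact absurd h (hmin' b a c hb ha hc h').ne'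
  · intro a ha; exact (hu (lt_of_le_of_lt ha hRR1)).le
  · intro c hc; exact (hw (lt_of_le_of_lt hc hRR2)).le
  · intro b hb; rw [hzz b hb]; exact (key b hb).1.1.le
  · intro t ht
    rw [himgα t ht]
    refine ((hK1 t (fun b hb => (key b (ht hb)).2.1.2)).1).trans ?_
    gcongr
    exact_mod_cast le_max_left _ _
  · intro t ht
    rw [himgα t ht]
    refine ((hK1 t (fun b hb => (key b (ht hb)).2.1.2)).2).trans ?_
    gcongr
    exact_mod_cast le_max_left _ _
  · intro t ht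
    rw [himgγ t ht]
    refine ((hK2 t (fun b hb => (key b (ht hb)).2.2.1.1)).1).trans ?_
    gcongr
    exact_mod_cast le_max_right _ _
  · intro U hU
    rw [himgα _ inter_subset_right]
    have h2 := hαs.map_nhds_eq_of_equiv
    rw [zz_at] at h2
    rw [← h2]
    exact Filter.image_mem_map (Filter.inter_mem hU (Metric.closedBall_mem_nhds _ hrpos))
  · have hmα : Measurable α := ContinuousOn.measurable_piecewise
      (continuous_fst.comp_continuousOn hzc) continuousOn_const Metric.isClosed_closedBall.measurableSet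
    refine smoothPush_of eα hmα ?_ ?_ ?_ ?_
    · intro b hb
      exact (hall2 (lt_trans (Metric.mem_ball.mp hb) hrr0)).1.2.1
    · intro b hb
      rw [heαc, hαe b (Metric.ball_subset_closedBall hb)]
    · intro b hb
      rw [heαc]
      exact (hall2 (lt_trans (Metric.mem_ball.mp hb) hrr0)).1.1.fst
    · intro b hb
      exact (hall2 (lt_trans (Metric.mem_ball.mp hb) hrr0)).2.1
  · have hmγ : Measurable γ := ContinuousOn.measurable_piecewise
      (continuous_snd.comp_continuousOn hzc) continuousOn_const Metric.isClosed_closedBall.measurableSet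
    refine smoothPush_of eγ hmγ ?_ ?_ ?_ ?_
    · intro b hb
      exact (hall2 (lt_trans (Metric.mem_ball.mp hb) hrr0)).1.2.2
    · intro b hb
      rw [heγc, hγe b (Metric.ball_subset_closedBall hb)]
    · intro b hb
      rw [heγc]
      exact (hall2 (lt_trans (Metric.mem_ball.mp hb) hrr0)).1.1.snd
    · intro b hb
      exact (hall2 (lt_trans (Metric.mem_ball.mp hb) hrr0)).2.2

end Vale.Agent.P121
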