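import Mathlib

/-! Definitions: the three-marginal Coulomb transport problem on `ℝ³`. -/

namespace Vale.Agent.P121

open MeasureTheory
open scoped ENNReal

/-- Euclidean three-space `ℝ³` with its Euclidean norm. -/
abbrev E3 := EuclideanSpace ℝ (Fin 3)

/-- The Coulomb cost `1/|x-y| + 1/|x-z| + 1/|y-z|` with values in `[0,∞]`; it is `∞` as soon as two
of the three points coincide (`edist` is the Euclidean distance and `0⁻¹ = ∞` in `[0,∞]`). -/
noncomputable def coulomb (x y z : E3) : ℝ≥0∞ := (edist x y)⁻¹ + (edist x z)⁻¹ + (edist y z)⁻¹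

/-- `π` is a transport plan with all three marginals equal to `μ`. -/
def IsPlan (μ : Measure E3) (π : Measure (E3 × E3 × E3)) : Prop :=
  π.map (fun p => p.1) = μ ∧ π.map (fun p => p.2.1) = μ ∧ π.map (fun p => p.2.2) = μ

/-- The Kantorovich value: the infimum of `∫ c dπ` over all transport plans `π`. -/
noncomputable def kantorovich (μ : Measure E3) : ℝ≥0∞ :=
  ⨅ (π : Measure (E3 × E3 × E3)) (_ : IsPlan μ π), ∫⁻ p, coulomb p.1 p.2.1 p.2.2 ∂π

/-- `μ` admits an optimal Monge plan: there are Borel maps `T₂`, `T₃` preserving `μ` such that the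
cost of the plan `(Id, T₂, T₃)_# μ` equals the Kantorovich value of `μ`. -/
def HasOptimalMongePlan (μ : Measure E3) : Prop :=
  ∃ T₂ T₃ : E3 → E3, Measurable T₂ ∧ Measurable T₃ ∧ μ.map T₂ = μ ∧ μ.map T₃ = μ ∧
    ∫⁻ x, coulomb x (T₂ x) (T₃ x) ∂μ = kantorovich μ

end Vale.Agent.P121
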