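import Vale.Agent.P121.Defs

/-! Local analysis of the three-body Coulomb energy near a collinear configuration. -/

namespace Vale.Agent.P121

open MeasureTheory Set Filter Topology
open scoped RealInnerProductSpace

/-- first basis vector -/
noncomputable def e1 : E3 := EuclideanSpace.single 0 1

lemma norm_e1 : ‖e1‖ = 1 := by simp [e1]

lemma inner_e1_e1 : ⟪e1, e1⟫ = 1 := by
  rw [real_inner_self_eq_norm_sq, norm_e1]; norm_num

/-- the Coulomb force field `x / |x|^3` -/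
noncomputable def kf (x : E3) : E3 := (‖x‖ ^ 3)⁻¹ • x

/-- `ξ ↦ ⟪x,ξ⟫ x` as a continuous linear map -/
noncomputable def rk1 (x : E3) : E3 →L[ℝ] E3 := (innerSL ℝ x).smulRight x

@[simp] lemma rk1_apply (x ξ : E3) : rk1 x ξ = ⟪x, ξ⟫ • x := by
  simp [rk1]

lemma hasStrictFDerivAt_norm' {x : E3} (hx : x ≠ 0) :
    HasStrictFDerivAt (fun y : E3 => ‖y‖) (‖x‖⁻¹ • innerSL ℝ x) x := by
  have h1 := hasStrictFDerivAt_norm_sq x
  have hx' : ‖x‖ ≠ 0 := norm_ne_zero_iff.mpr hx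
  have h2 := h1.sqrt (by positivity)
  have h3 : (fun y : E3 => Real.sqrt (‖y‖ ^ 2)) = fun y => ‖y‖ := by
    funext y; rw [Real.sqrt_sq (norm_nonneg _)]
  rw [h3] at h2
  refine h2.congr_fderiv ?_
  rw [Real.sqrt_sq (norm_nonneg _)]
  ext ξ
  simp
  field_simp

lemma hasStrictFDerivAt_kf {x : E3} (hx : x ≠ 0) :
    HasStrictFDerivAt kf ((‖x‖ ^ 3)⁻¹ • ContinuousLinearMap.id ℝ E3 -
      (3 * (‖x‖ ^ 5)⁻¹) • rk1 x) x := by
  have hx' : ‖x‖ ≠ 0 := norm_ne_zero_iff.mpr hx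
  have h1 := hasStrictFDerivAt_norm' hx
  have h2 : HasStrictFDerivAt (fun y : E3 => (‖y‖ ^ 3)⁻¹)
      ((-(3 * (‖x‖ ^ 4)⁻¹)) • (‖x‖⁻¹ • innerSL ℝ x)) x := by
    have h3 : HasStrictDerivAt (fun t : ℝ => (t ^ 3)⁻¹) (-(3 * (‖x‖ ^ 4)⁻¹)) ‖x‖ := by
      have h4 := (hasStrictDerivAt_pow 3 ‖x‖)
      have h6 : HasStrictDerivAt (Inv.inv : ℝ → ℝ) (-((‖x‖ ^ 3) ^ 2)⁻¹) ((fun t : ℝ => t ^ 3) ‖x‖) :=
        hasStrictDerivAt_inv (pow_ne_zero 3 hx')
      have h5 := HasStrictDerivAt.comp (h := fun t : ℝ => t ^ 3) (h₂ := (Inv.inv : ℝ → ℝ)) ‖x‖ h6 h4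
      refine h5.congr_deriv ?_
      field_simp
      norm_num
      ring
    exact h3.comp_hasStrictFDerivAt x h1
  have h6 := h2.smul (hasStrictFDerivAt_id x)
  refine h6.congr_fderiv ?_
  ext ξ i
  simp
  field_simp
  ring



/-- `K = diag(-2,1,1)` -/
noncomputable def KK : E3 →L[ℝ] E3 := ContinuousLinearMap.id ℝ E3 - (3 : ℝ) • rk1 e1

@[simp] lemma KK_apply (ξ : E3) : KK ξ = ξ - (3 * ⟪e1, ξ⟫) • e1 := by
  simp [KK, smul_smul]

lemma e1_ne : e1 ≠ 0 := by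
  intro h; have := norm_e1; rw [h] at this; simp at this

lemma rk1_neg (x : E3) : rk1 (-x) = rk1 x := by
  ext ξ; simp

lemma kf_e1 : HasStrictFDerivAt kf KK e1 := by
  have h := hasStrictFDerivAt_kf e1_ne
  refine h.congr_fderiv ?_
  rw [norm_e1, KK]; norm_num

lemma kf_neg_e1 : HasStrictFDerivAt kf KK (-e1) := by
  have h := hasStrictFDerivAt_kf (neg_ne_zero.mpr e1_ne)
  refine h.congr_fderiv ?_
  rw [norm_neg, norm_e1, KK, rk1_neg]; norm_num

lemma kf_two_e1 : HasStrictFDerivAt kf ((1 / 8 : ℝ) • KK) ((2 : ℝ) • e1) := by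
  have h := hasStrictFDerivAt_kf (x := (2 : ℝ) • e1) (smul_ne_zero two_ne_zero e1_ne)
  refine h.congr_fderiv ?_
  ext ξ i
  simp [norm_smul, norm_e1, inner_smul_left]
  ring

/-- The gradient map in the two free variables `(a, c)`, as a function of `(b, (a, c))`. -/
noncomputable def GG (p : E3 × E3 × E3) : E3 × E3 :=
  (-kf (p.2.1 - p.1) - kf (p.2.1 - p.2.2) + (4 : ℝ) • p.2.1,
   kf (p.2.1 - p.2.2) + kf (p.1 - p.2.2) - (5 / 4 : ℝ) • e1 + (p.2.2 + e1) + KK (p.2.2 + e1))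

/-- base point -/
noncomputable def p0 : E3 × E3 × E3 := (e1, (0, -e1))

/-- projections -/
noncomputable def prB : E3 × E3 × E3 →L[ℝ] E3 := ContinuousLinearMap.fst ℝ E3 (E3 × E3)
noncomputable def prA : E3 × E3 × E3 →L[ℝ] E3 :=
  (ContinuousLinearMap.fst ℝ E3 E3).comp (ContinuousLinearMap.snd ℝ E3 (E3 × E3))
noncomputable def prC : E3 × E3 × E3 →L[ℝ] E3 :=
  (ContinuousLinearMap.snd ℝ E3 E3).comp (ContinuousLinearMap.snd ℝ E3 (E3 × E3))

/-- the derivative of `GG` at the base point -/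
noncomputable def GG' : E3 × E3 × E3 →L[ℝ] E3 × E3 :=
  (-(KK.comp (prA - prB)) - KK.comp (prA - prC) + (4 : ℝ) • prA).prod
    (KK.comp (prA - prC) + ((1 / 8 : ℝ) • KK).comp (prB - prC) + prC + KK.comp prC)

lemma hasStrict_GG : HasStrictFDerivAt GG GG' p0 := by
  have hA : HasStrictFDerivAt (fun p : E3 × E3 × E3 => p.2.1) prA p0 := prA.hasStrictFDerivAt
  have hB : HasStrictFDerivAt (fun p : E3 × E3 × E3 => p.1) prB p0 := prB.hasStrictFDerivAt
  have hC : HasStrictFDerivAt (fun p : E3 × E3 × E3 => p.2.2) prC p0 := prC.hasStrictFDerivAt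
  have hAB : HasStrictFDerivAt (fun p : E3 × E3 × E3 => kf (p.2.1 - p.1)) (KK.comp (prA - prB)) p0 := by
    have h : HasStrictFDerivAt (fun p : E3 × E3 × E3 => p.2.1 - p.1) (prA - prB) p0 := hA.sub hB
    have e : p0.2.1 - p0.1 = -e1 := by simp [p0]
    refine HasStrictFDerivAt.comp (g := kf) p0 ?_ h
    simp only [e]
    exact kf_neg_e1
  have hAC : HasStrictFDerivAt (fun p : E3 × E3 × E3 => kf (p.2.1 - p.2.2)) (KK.comp (prA - prC)) p0 := by
    have h : HasStrictFDerivAt (fun p : E3 × E3 × E3 => p.2.1 - p.2.2) (prA - prC) p0 := hA.sub hC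
    have e : p0.2.1 - p0.2.2 = e1 := by simp [p0]
    refine HasStrictFDerivAt.comp (g := kf) p0 ?_ h
    simp only [e]
    exact kf_e1
  have hBC : HasStrictFDerivAt (fun p : E3 × E3 × E3 => kf (p.1 - p.2.2))
      (((1 / 8 : ℝ) • KK).comp (prB - prC)) p0 := by
    have h : HasStrictFDerivAt (fun p : E3 × E3 × E3 => p.1 - p.2.2) (prB - prC) p0 := hB.sub hC
    have e : p0.1 - p0.2.2 = (2 : ℝ) • e1 := by simp [p0, two_smul]
    refine HasStrictFDerivAt.comp (g := kf) p0 ?_ h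
    simp only [e]
    exact kf_two_e1
  have h1 := ((hAB.neg.sub hAC).add (hA.const_smul (4 : ℝ)))
  have hK : HasStrictFDerivAt (fun p : E3 × E3 × E3 => KK (p.2.2 + e1)) (KK.comp prC) p0 :=
    HasStrictFDerivAt.comp (g := KK) p0 KK.hasStrictFDerivAt (hC.add_const e1)
  have h2 := (((hAC.add hBC).sub_const ((5 / 4 : ℝ) • e1)).add (hC.add_const e1)).add hK
  exact h1.prodMk h2

end Vale.Agent.P121
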