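import Vale.Agent.P121.Field

/-! Local analysis, continued: monotonicity of the gradient, implicit functions. -/

namespace Vale.Agent.P121

open MeasureTheory Set Filter Topology
open scoped RealInnerProductSpace

lemma inner3 (x y : E3) : ⟪x, y⟫ = x 0 * y 0 + x 1 * y 1 + x 2 * y 2 := by
  simp [PiLp.inner_apply, Fin.sum_univ_three]
  ring

lemma norm_sq3 (x : E3) : ‖x‖ ^ 2 = x 0 ^ 2 + x 1 ^ 2 + x 2 ^ 2 := by
  rw [← real_inner_self_eq_norm_sq, inner3]; ring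

@[simp] lemma e1_0 : e1 0 = 1 := by simp [e1]
@[simp] lemma e1_1 : e1 1 = 0 := by simp [e1]
@[simp] lemma e1_2 : e1 2 = 0 := by simp [e1]

lemma GG'_apply (p : E3 × E3 × E3) : GG' p =
    (-(KK (p.2.1 - p.1)) - KK (p.2.1 - p.2.2) + (4 : ℝ) • p.2.1,
     KK (p.2.1 - p.2.2) + (1 / 8 : ℝ) • KK (p.1 - p.2.2) + p.2.2 + KK p.2.2) := by
  rfl

/-- pairing on `E3 × E3` -/
noncomputable def pr (u v : E3 × E3) : ℝ := ⟪u.1, v.1⟫ + ⟪u.2, v.2⟫

lemma pr_add_left (u u' v : E3 × E3) : pr (u + u') v = pr u v + pr u' v := by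
  simp [pr, inner_add_left]; ring

lemma pr_sub_left (u u' v : E3 × E3) : pr (u - u') v = pr u v - pr u' v := by
  simp [pr, inner_sub_left]; ring

lemma abs_pr_le (u v : E3 × E3) : |pr u v| ≤ 2 * ‖u‖ * ‖v‖ := by
  have h1 := abs_real_inner_le_norm u.1 v.1
  have h2 := abs_real_inner_le_norm u.2 v.2
  have h3 := norm_fst_le u
  have h4 := norm_snd_le u
  have h5 := norm_fst_le v
  have h6 := norm_snd_le v
  have h7 : ‖u.1‖ * ‖v.1‖ ≤ ‖u‖ * ‖v‖ := by gcongr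
  have h8 : ‖u.2‖ * ‖v.2‖ ≤ ‖u‖ * ‖v‖ := by gcongr
  calc |pr u v| ≤ |⟪u.1, v.1⟫| + |⟪u.2, v.2⟫| := abs_add_le _ _
    _ ≤ 2 * ‖u‖ * ‖v‖ := by linarith

lemma pr_pos (z : E3 × E3) : (1 / 4) * ‖z‖ ^ 2 ≤ pr (GG' (0, z)) z := by
  obtain ⟨a, c⟩ := z
  have h1 : ‖(a, c)‖ ^ 2 ≤ ‖a‖ ^ 2 + ‖c‖ ^ 2 := by
    rw [Prod.norm_def]
    rcases max_cases ‖a‖ ‖c‖ with h | h <;> simp only [h.1] <;> nlinarith [sq_nonneg ‖a‖, sq_nonneg ‖c‖]
  refine le_trans (mul_le_mul_of_nonneg_left h1 (by norm_num)) ?_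
  rw [GG'_apply, pr, norm_sq3, norm_sq3]
  simp only [inner3, KK_apply, PiLp.add_apply, PiLp.sub_apply, PiLp.smul_apply, PiLp.neg_apply,
    smul_eq_mul, e1_0, e1_1, e1_2]
  simp
  nlinarith [sq_nonneg (a 0 * 2 - c 0 / 2), sq_nonneg (a 1 + c 1 * (4/7)), sq_nonneg (a 2 + c 2 * (4/7)),
    sq_nonneg (a 0), sq_nonneg (c 0), sq_nonneg (c 1), sq_nonneg (c 2)]



/-- the partial derivative in the variables `(a,c)` -/
noncomputable def MM : E3 × E3 →L[ℝ] E3 × E3 := GG' ∘L .inr ℝ E3 (E3 × E3)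

lemma MM_apply (z : E3 × E3) : MM z = GG' (0, z) := by
  simp [MM]

lemma MM_inj : Function.Injective MM := by
  rw [injective_iff_map_eq_zero]
  intro z hz
  have h := pr_pos z
  rw [← MM_apply, hz] at h
  have h0 : pr (0 : E3 × E3) z = 0 := by simp [pr]
  rw [h0] at h
  have : ‖z‖ ^ 2 ≤ 0 := by linarith
  have h2 : ‖z‖ = 0 := by nlinarith [norm_nonneg z]
  exact norm_eq_zero.mp h2

lemma MM_invertible : MM.IsInvertible := by
  let e : (E3 × E3) ≃ₗ[ℝ] (E3 × E3) := LinearEquiv.ofInjectiveEndo (MM : E3 × E3 →ₗ[ℝ] E3 × E3) MM_inj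
  refine ⟨e.toContinuousLinearEquiv, ?_⟩
  ext z <;> simp [e]

/-- monotonicity of the gradient near the base point -/
lemma eventually_mono : ∀ᶠ q : (E3 × E3 × E3) × (E3 × E3 × E3) in 𝓝 (p0, p0),
    q.1.1 = q.2.1 → q.1.2 ≠ q.2.2 → 0 < pr (GG q.1 - GG q.2) (q.1.2 - q.2.2) := by
  have h := hasStrict_GG.isLittleO
  have h1 := h.def (show (0 : ℝ) < 1 / 16 by norm_num)
  filter_upwards [h1] with q hq hq1 hq2
  obtain ⟨⟨b, z⟩, ⟨b', z'⟩⟩ := q
  simp only at hq hq1 hq2 ⊢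
  subst hq1
  set ζ := z - z' with hζ
  have hζ0 : 0 < ‖ζ‖ := by
    rw [norm_pos_iff]; exact sub_ne_zero.mpr hq2
  have e1 : (b, z) - (b, z') = ((0 : E3), ζ) := by simp [hζ]
  rw [e1] at hq
  have e2 : ‖((0 : E3), ζ)‖ = ‖ζ‖ := by simp [Prod.norm_def]
  rw [e2] at hq
  have h3 : pr (GG (b, z) - GG (b, z')) ζ =
      pr (GG (b, z) - GG (b, z') - GG' (0, ζ)) ζ + pr (GG' (0, ζ)) ζ := by
    rw [← pr_add_left]; congr 1; abel
  rw [h3]
  have h4 := abs_pr_le (GG (b, z) - GG (b, z') - GG' (0, ζ)) ζ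
  have h5 := pr_pos ζ
  have h6 : 2 * ‖GG (b, z) - GG (b, z') - GG' (0, ζ)‖ * ‖ζ‖ ≤ 2 * (1 / 16 * ‖ζ‖) * ‖ζ‖ := by
    gcongr
  have h7 := neg_abs_le (pr (GG (b, z) - GG (b, z') - GG' (0, ζ)) ζ)
  nlinarith [mul_pos hζ0 hζ0]

/-- the implicit function -/
noncomputable def zz : E3 → E3 × E3 :=
  hasStrict_GG.implicitFunctionOfProdDomain (u := p0) MM_invertible

lemma GG_p0 : GG p0 = 0 := by
  have h1 : kf e1 = e1 := by simp [kf, norm_e1]
  have h2 : kf (-e1) = -e1 := by simp [kf, norm_e1]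
  have h3 : kf (e1 - -e1) = (1 / 4 : ℝ) • e1 := by
    have : e1 - -e1 = (2 : ℝ) • e1 := by rw [two_smul]; abel
    rw [this, kf, norm_smul, norm_e1, smul_smul]; norm_num
  simp only [GG, p0]
  rw [h3]
  simp [h1, h2]
  ext i
  simp
  ring

lemma zz_strict : HasStrictFDerivAt zz (-(MM.inverse) ∘L (GG' ∘L .inl ℝ E3 (E3 × E3))) e1 :=
  hasStrict_GG.hasStrictFDerivAt_implicitFunctionOfProdDomain (u := p0) MM_invertible

lemma zz_tendsto : Tendsto zz (𝓝 e1) (𝓝 (0, -e1)) :=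
  hasStrict_GG.tendsto_implicitFunctionOfProdDomain (u := p0) MM_invertible

lemma zz_eq : ∀ᶠ b in 𝓝 e1, GG (b, zz b) = 0 := by
  have h := hasStrict_GG.eventually_apply_implicitFunctionOfProdDomain (u := p0) MM_invertible
  rw [GG_p0] at h
  exact h

/-- derivative of the `a` component: `diag (1/2, -1, -1)` -/
noncomputable def LA : E3 →L[ℝ] E3 := -ContinuousLinearMap.id ℝ E3 + (3 / 2 : ℝ) • rk1 e1

@[simp] lemma LA_apply (ξ : E3) : LA ξ = -ξ + (3 / 2 * ⟪e1, ξ⟫) • e1 := by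
  simp [LA, smul_smul]

lemma zz_strict' : HasStrictFDerivAt zz (LA.prod (ContinuousLinearMap.id ℝ E3)) e1 := by
  refine zz_strict.congr_fderiv ?_
  ext1 ξ
  have h1 : MM (LA ξ, ξ) = -GG' (ξ, 0) := by
    rw [MM_apply, eq_neg_iff_add_eq_zero, ← map_add]
    rw [GG'_apply]
    simp only [Prod.mk_add_mk, add_zero, zero_add, Prod.mk_eq_zero]
    constructor
    · ext i
      fin_cases i <;> simp [inner3] <;> ring
    · ext i
      fin_cases i <;> simp [inner3] <;> ring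
  have h2 : MM.inverse (MM (LA ξ, ξ)) = (LA ξ, ξ) := MM_invertible.inverse_apply_self _
  rw [h1] at h2
  have h3 : (-(MM.inverse) ∘L (GG' ∘L .inl ℝ E3 (E3 × E3))) ξ = MM.inverse (-GG' (ξ, 0)) := by
    simp
  rw [h3, h2]
  rfl

end Vale.Agent.P121
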