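import Vale.Agent.P121.Measure

/-! No optimal Monge plan. -/

namespace Vale.Agent.P121

open MeasureTheory Set Filter Topology
open scoped RealInnerProductSpace NNReal ENNReal

namespace Data

variable (D : Data)

variable {ν : Measure E3} (hν : ν (Metric.closedBall e1 D.r)ᶜ = 0)

include hν in
lemma ν_null {E : Set E3} (h : ∀ b ∈ Metric.closedBall e1 D.r, b ∉ E) : ν E = 0 :=
  measure_mono_null (fun b hb hb' => h b hb' hb) hν

lemma half_apply {E : Set E3} (hE : MeasurableSet E) :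
    D.half ν E = ν (D.α ⁻¹' E) + ν E + ν (D.γ ⁻¹' E) := by
  unfold half
  rw [Measure.add_apply, Measure.add_apply, Measure.map_apply D.mα hE, Measure.map_apply D.mγ hE]

lemma mu_apply {E : Set E3} (hE : MeasurableSet E) :
    D.mu ν E = (ν (D.α ⁻¹' E) + ν E + ν (D.γ ⁻¹' E)) +
      (ν (D.α ⁻¹' (σ ⁻¹' E)) + ν (σ ⁻¹' E) + ν (D.γ ⁻¹' (σ ⁻¹' E))) := by
  unfold mu half
  rw [Measure.add_apply, Measure.map_apply σ_meas hE, Measure.add_apply, Measure.add_apply,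
    Measure.map_apply D.mα hE, Measure.map_apply D.mγ hE, Measure.add_apply, Measure.add_apply,
    Measure.map_apply D.mα (σ_meas hE), Measure.map_apply D.mγ (σ_meas hE)]

include hν in
lemma mu_cl0 {E : Set E3} (hE : MeasurableSet E) (h0 : E ⊆ D.cl 0) :
    D.mu ν E = ν (D.α ⁻¹' E) + ν (D.α ⁻¹' (σ ⁻¹' E)) := by
  rw [D.mu_apply hE]
  have z1 : ν E = 0 := D.ν_null hν fun b hb hE => D.cl_ne (by decide) (h0 hE) (D.bcl hb) rfl
  have z2 : ν (D.γ ⁻¹' E) = 0 :=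
    D.ν_null hν fun b hb hE => D.cl_ne (by decide) (h0 hE) (D.γcl hb) rfl
  have z3 : ν (σ ⁻¹' E) = 0 :=
    D.ν_null hν fun b hb hE => D.cl_ne (by decide) (h0 hE) (D.σbcl hb) rfl
  have z4 : ν (D.γ ⁻¹' (σ ⁻¹' E)) = 0 :=
    D.ν_null hν fun b hb hE => D.cl_ne (by decide) (h0 hE) (D.σγcl hb) rfl
  rw [z1, z2, z3, z4]; simp

include hν in
lemma mu_cl1 {E : Set E3} (hE : MeasurableSet E) (h0 : E ⊆ D.cl 1) :
    D.mu ν E = ν E := by
  rw [D.mu_apply hE]
  have z1 : ν (D.α ⁻¹' E) = 0 :=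
    D.ν_null hν fun b hb hE => D.cl_ne (by decide) (h0 hE) (D.αcl hb) rfl
  have z2 : ν (D.γ ⁻¹' E) = 0 :=
    D.ν_null hν fun b hb hE => D.cl_ne (by decide) (h0 hE) (D.γcl hb) rfl
  have z3 : ν (σ ⁻¹' E) = 0 :=
    D.ν_null hν fun b hb hE => D.cl_ne (by decide) (h0 hE) (D.σbcl hb) rfl
  have z4 : ν (D.γ ⁻¹' (σ ⁻¹' E)) = 0 :=
    D.ν_null hν fun b hb hE => D.cl_ne (by decide) (h0 hE) (D.σγcl hb) rfl
  have z5 : ν (D.α ⁻¹' (σ ⁻¹' E)) = 0 :=
    D.ν_null hν fun b hb hE => D.cl_ne (by decide) (h0 hE) (D.σαcl hb) rfl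
  rw [z1, z2, z3, z4, z5]; simp

include hν in
lemma mu_cl2 {E : Set E3} (hE : MeasurableSet E) (h0 : E ⊆ D.cl 2) :
    D.mu ν E = ν (D.γ ⁻¹' E) := by
  rw [D.mu_apply hE]
  have z1 : ν (D.α ⁻¹' E) = 0 :=
    D.ν_null hν fun b hb hE => D.cl_ne (by decide) (h0 hE) (D.αcl hb) rfl
  have z2 : ν E = 0 :=
    D.ν_null hν fun b hb hE => D.cl_ne (by decide) (h0 hE) (D.bcl hb) rfl
  have z3 : ν (σ ⁻¹' E) = 0 :=
    D.ν_null hν fun b hb hE => D.cl_ne (by decide) (h0 hE) (D.σbcl hb) rfl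
  have z4 : ν (D.γ ⁻¹' (σ ⁻¹' E)) = 0 :=
    D.ν_null hν fun b hb hE => D.cl_ne (by decide) (h0 hE) (D.σγcl hb) rfl
  have z5 : ν (D.α ⁻¹' (σ ⁻¹' E)) = 0 :=
    D.ν_null hν fun b hb hE => D.cl_ne (by decide) (h0 hE) (D.σαcl hb) rfl
  rw [z1, z2, z3, z4, z5]; simp

include hν in
lemma mu_compl_SS : D.mu ν D.SSᶜ = 0 := by
  have hm := D.SS_meas.compl
  rw [D.mu_apply hm]
  have sub : ∀ (i : Fin 5) (x : E3), x ∈ D.cl i → x ∉ D.SSᶜ := by
    intro i x hx h
    exact h (mem_iUnion.mpr ⟨i, hx⟩)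
  rw [D.ν_null (E := D.α ⁻¹' D.SSᶜ) hν fun b hb hE => sub 0 _ (D.αcl hb) hE,
    D.ν_null (E := D.SSᶜ) hν fun b hb hE => sub 1 _ (D.bcl hb) hE,
    D.ν_null (E := D.γ ⁻¹' D.SSᶜ) hν fun b hb hE => sub 2 _ (D.γcl hb) hE,
    D.ν_null (E := D.α ⁻¹' (σ ⁻¹' D.SSᶜ)) hν fun b hb hE => sub 0 _ (D.σαcl hb) hE,
    D.ν_null (E := σ ⁻¹' D.SSᶜ) hν fun b hb hE => sub 3 _ (D.σbcl hb) hE,
    D.ν_null (E := D.γ ⁻¹' (σ ⁻¹' D.SSᶜ)) hν fun b hb hE => sub 4 _ (D.σγcl hb) hE]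
  simp

lemma mu_univ : D.mu ν univ = 6 * ν univ := by
  rw [D.mu_apply MeasurableSet.univ]
  simp only [preimage_univ]
  ring

/-- consequences of the contact relation, 1 -/
lemma contact_B {x y z : E3} (h : D.Contact x y z) (hy : y ∈ Metric.closedBall e1 D.r) :
    (x = D.α y ∧ z = D.γ y) ∨ (x = D.γ y ∧ z = D.α y) := by
  have hy1 : y ∈ D.cl 1 := hy
  rcases h with h | h
  · rcases h with h | h | h | h | h | h
    · exact Or.inl ⟨h.2.1, h.2.2⟩
    · exact absurd h.2.2 (D.cl_ne (by decide) hy1 (D.γcl h.1))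
    · exact absurd h.2.1 (D.cl_ne (by decide) hy1 (D.αcl h.1))
    · exact absurd h.2.2 (D.cl_ne (by decide) hy1 (D.γcl h.1))
    · exact absurd h.2.1 (D.cl_ne (by decide) hy1 (D.αcl h.1))
    · exact Or.inr ⟨h.2.2, h.2.1⟩
  · exfalso
    have key : ∀ w i, w ∈ D.cl i → i ≠ 1 → y = w → False := by
      intro w i hw hi hyw
      exact D.cl_ne (Ne.symm hi) hy1 hw hyw
    have up : ∀ w w' : E3, σ w = w' → w = σ w' := by
      intro w w' h; rw [← h, σ_σ]
    rcases h with h | h | h | h | h | h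
    · exact key _ 3 (D.σbcl h.1) (by decide) (by rw [σ_σ])
    · exact key _ 4 (D.σγcl h.1) (by decide) (up _ _ h.2.2)
    · exact key _ 0 (D.σαcl h.1) (by decide) (up _ _ h.2.1)
    · exact key _ 4 (D.σγcl h.1) (by decide) (up _ _ h.2.2)
    · exact key _ 0 (D.σαcl h.1) (by decide) (up _ _ h.2.1)
    · exact key _ 3 (D.σbcl h.1) (by decide) (by rw [σ_σ])

lemma Sym_swap23 {x y z : E3} (h : D.Sym x y z) : D.Sym x z y := by
  unfold Sym at *; tauto

lemma Contact_swap23 {x y z : E3} (h : D.Contact x y z) : D.Contact x z y := by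
  rcases h with h | h
  · exact Or.inl (D.Sym_swap23 h)
  · exact Or.inr (D.Sym_swap23 h)

/-- consequences of the contact relation, 2 -/
lemma contact_C {x y z : E3} (h : D.Contact x y z) (hx : x ∈ D.cl 2) :
    (y ∈ Metric.closedBall e1 D.r ∧ x = D.γ y) ∨ (z ∈ Metric.closedBall e1 D.r ∧ x = D.γ z) := by
  rcases h with h | h
  · rcases h with h | h | h | h | h | h
    · exact absurd h.2.1 (D.cl_ne (by decide) hx (D.αcl h.1))
    · exact absurd h.2.1 (D.cl_ne (by decide) hx (D.αcl h.1))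
    · exact absurd rfl (D.cl_ne (by decide) hx (D.bcl h.1))
    · exact absurd rfl (D.cl_ne (by decide) hx (D.bcl h.1))
    · exact Or.inr ⟨h.1, h.2.2⟩
    · exact Or.inl ⟨h.1, h.2.2⟩
  · exfalso
    have key : ∀ w i, w ∈ D.cl i → i ≠ 2 → x = w → False := by
      intro w i hw hi hyw
      exact D.cl_ne (Ne.symm hi) hx hw hyw
    have up : ∀ w w' : E3, σ w = w' → w = σ w' := by
      intro w w' h; rw [← h, σ_σ]
    rcases h with h | h | h | h | h | h
    · exact key _ 0 (D.σαcl h.1) (by decide) (up _ _ h.2.1)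
    · exact key _ 0 (D.σαcl h.1) (by decide) (up _ _ h.2.1)
    · exact key _ 3 (D.σbcl h.1) (by decide) (by rw [σ_σ])
    · exact key _ 3 (D.σbcl h.1) (by decide) (by rw [σ_σ])
    · exact key _ 4 (D.σγcl h.1) (by decide) (up _ _ h.2.2)
    · exact key _ 4 (D.σγcl h.1) (by decide) (up _ _ h.2.2)

include hν in
/-- The key identity for an optimal Monge plan. -/
theorem key_identity [IsFiniteMeasure ν] {T₂ T₃ : E3 → E3} (hT₂ : Measurable T₂) (hT₃ : Measurable T₃)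
    (hm₂ : (D.mu ν).map T₂ = D.mu ν) (hm₃ : (D.mu ν).map T₃ = D.mu ν)
    (hopt : ∫⁻ x, coulomb x (T₂ x) (T₃ x) ∂(D.mu ν) = kantorovich (D.mu ν)) :
    ∃ A₁ : Set E3, MeasurableSet A₁ ∧ A₁ ⊆ D.cl 0 ∧
      ∀ E, MeasurableSet E → D.mu ν (A₁ ∩ E) = ν (D.α ⁻¹' E) := by
  have hfin : IsFiniteMeasure (D.mu ν) := by
    constructor
    rw [D.mu_univ]
    exact ENNReal.mul_lt_top (by simp) (measure_lt_top ν univ)
  -- supports
  have s1 : ∀ᵐ x ∂(D.mu ν), x ∈ D.SS := by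
    rw [ae_iff]; exact D.mu_compl_SS hν
  have s2 : ∀ᵐ x ∂(D.mu ν), T₂ x ∈ D.SS := by
    have h : ∀ᵐ y ∂((D.mu ν).map T₂), y ∈ D.SS := by rw [hm₂]; exact s1
    exact ae_of_ae_map hT₂.aemeasurable h
  have s3 : ∀ᵐ x ∂(D.mu ν), T₃ x ∈ D.SS := by
    have h : ∀ᵐ y ∂((D.mu ν).map T₃), y ∈ D.SS := by rw [hm₃]; exact s1
    exact ae_of_ae_map hT₃.aemeasurable h
  -- contact almost everywhere
  have hle : ∀ᵐ x ∂(D.mu ν), D.phi x + D.phi (T₂ x) + D.phi (T₃ x) ≤ coulomb x (T₂ x) (T₃ x) := by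
    filter_upwards [s1, s2, s3] with x h1 h2 h3
    exact D.phi_le h1 h2 h3
  have hphi := D.phi_meas
  have hint : ∫⁻ x, (D.phi x + D.phi (T₂ x) + D.phi (T₃ x)) ∂(D.mu ν) =
      3 * ∫⁻ x, D.phi x ∂(D.mu ν) := by
    have q2 : Measurable (fun x => D.phi (T₂ x)) := hphi.comp hT₂
    have q3 : Measurable (fun x => D.phi (T₃ x)) := hphi.comp hT₃
    rw [lintegral_add_right _ q3, lintegral_add_right _ q2]
    have i2 : ∫⁻ x, D.phi (T₂ x) ∂(D.mu ν) = ∫⁻ x, D.phi x ∂(D.mu ν) := by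
      conv_rhs => rw [← hm₂]
      rw [lintegral_map hphi hT₂]
    have i3 : ∫⁻ x, D.phi (T₃ x) ∂(D.mu ν) = ∫⁻ x, D.phi x ∂(D.mu ν) := by
      conv_rhs => rw [← hm₃]
      rw [lintegral_map hphi hT₃]
    rw [i2, i3]
    ring
  have hfin3 : 3 * ∫⁻ x, D.phi x ∂(D.mu ν) ≠ ∞ := by
    refine ENNReal.mul_ne_top (by simp) ?_
    have : ∫⁻ x, D.phi x ∂(D.mu ν) ≤ ∫⁻ _, (5 * 2 : ℝ≥0∞) ∂(D.mu ν) := lintegral_mono D.phi_bdd
    refine ne_top_of_le_ne_top ?_ this
    rw [lintegral_const]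
    exact ENNReal.mul_ne_top (ENNReal.mul_ne_top (by simp) (by simp)) (measure_ne_top _ _)
  have hcm : Measurable (fun x => coulomb x (T₂ x) (T₃ x)) := by
    have h0 : Measurable fun x : E3 => (x, T₂ x, T₃ x) := measurable_id.prodMk (hT₂.prodMk hT₃)
    have := measurable_coulomb.comp h0
    simpa only [Function.comp_def] using this
  have heq : (fun x => D.phi x + D.phi (T₂ x) + D.phi (T₃ x)) =ᵐ[D.mu ν]
      fun x => coulomb x (T₂ x) (T₃ x) := by
    refine ae_eq_of_ae_le_of_lintegral_le hle ?_ hcm.aemeasurable ?_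
    · rw [hint]; exact hfin3
    · rw [hint, hopt]; exact D.kanto_le hν
  have hcon : ∀ᵐ x ∂(D.mu ν), D.Contact x (T₂ x) (T₃ x) := by
    filter_upwards [s1, s2, s3, heq] with x h1 h2 h3 h4
    exact D.phi_contact h1 h2 h3 h4
  set B := Metric.closedBall e1 D.r with hB
  have hBm : MeasurableSet B := Metric.isClosed_closedBall.measurableSet
  set A₁ : Set E3 := D.cl 0 ∩ (T₂ ⁻¹' B ∪ T₃ ⁻¹' B) with hA₁
  have hA₁m : MeasurableSet A₁ := (D.cl_meas 0).inter ((hT₂ hBm).union (hT₃ hBm))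
  refine ⟨A₁, hA₁m, inter_subset_left, ?_⟩
  intro E hE
  set F : Set E3 := B ∩ D.α ⁻¹' E with hF
  have hFm : MeasurableSet F := hBm.inter (D.mα hE)
  have hFB : F ⊆ B := inter_subset_left
  have hγF : MeasurableSet (D.γ '' F) :=
    hFm.image_of_measurable_injOn D.mγ (D.γinj.mono hFB)
  have hγF2 : D.γ '' F ⊆ D.cl 2 := by
    rintro _ ⟨b, hb, rfl⟩; exact D.γcl (hFB hb)
  -- measures of the pieces
  have k1 : D.mu ν F = ν F := D.mu_cl1 hν hFm hFB
  have k2 : D.mu ν (D.γ '' F) = ν F := by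
    rw [D.mu_cl2 hν hγF hγF2]
    refine measure_congr ?_
    filter_upwards [D.ae_ball hν] with b hb
    refine propext ⟨?_, ?_⟩
    · rintro ⟨b', hb', h⟩
      have := D.γinj (hFB hb') hb h
      rw [← this]; exact hb'
    · intro h; exact ⟨b, h, rfl⟩
  have k3 : ν F = ν (D.α ⁻¹' E) := by
    refine measure_congr ?_
    filter_upwards [D.ae_ball hν] with b hb
    refine propext ⟨fun h => h.2, fun h => ⟨hb, h⟩⟩
  have t2 : D.mu ν (T₂ ⁻¹' F) = ν F := by
    rw [← Measure.map_apply hT₂ hFm, hm₂, k1]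
  have t3 : D.mu ν (T₃ ⁻¹' F) = ν F := by
    rw [← Measure.map_apply hT₃ hFm, hm₃, k1]
  have hdisj : D.mu ν (T₂ ⁻¹' F ∩ T₃ ⁻¹' F) = 0 := by
    refine measure_mono_null ?_ (ae_iff.mp hcon)
    rintro x ⟨h2, h3⟩ hc
    rcases D.contact_B hc h2.1 with h | h
    · exact D.cl_ne (by decide) (D.bcl h3.1) (D.γcl h2.1) h.2
    · exact D.cl_ne (by decide) (D.bcl h3.1) (D.αcl h2.1) h.2
  have hunion : D.mu ν (T₂ ⁻¹' F ∪ T₃ ⁻¹' F) = D.mu ν ((A₁ ∩ E) ∪ D.γ '' F) := by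
    refine measure_congr ?_
    filter_upwards [hcon] with x hc
    refine propext ⟨?_, ?_⟩
    · rintro (h | h)
      · rcases D.contact_B hc h.1 with h' | h'
        · refine Or.inl ⟨⟨?_, Or.inl h.1⟩, ?_⟩
          · rw [h'.1]; exact D.αcl h.1
          · rw [h'.1]; exact h.2
        · exact Or.inr ⟨T₂ x, h, h'.1.symm⟩
      · rcases D.contact_B (D.Contact_swap23 hc) h.1 with h' | h'
        · refine Or.inl ⟨⟨?_, Or.inr h.1⟩, ?_⟩
          · rw [h'.1]; exact D.αcl h.1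
          · rw [h'.1]; exact h.2
        · exact Or.inr ⟨T₃ x, h, h'.1.symm⟩
    · rintro (h | h)
      · obtain ⟨⟨h0, h1⟩, hE'⟩ := h
        rcases h1 with h1 | h1
        · rcases D.contact_B hc h1 with h' | h'
          · refine Or.inl ⟨h1, ?_⟩
            change D.α (T₂ x) ∈ E
            rw [← h'.1]; exact hE'
          · exact absurd h'.1 (D.cl_ne (by decide) h0 (D.γcl h1))
        · rcases D.contact_B (D.Contact_swap23 hc) h1 with h' | h'
          · refine Or.inr ⟨h1, ?_⟩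
            change D.α (T₃ x) ∈ E
            rw [← h'.1]; exact hE'
          · exact absurd h'.1 (D.cl_ne (by decide) h0 (D.γcl h1))
      · obtain ⟨b, hb, rfl⟩ := h
        rcases D.contact_C hc (D.γcl (hFB hb)) with h' | h'
        · have := D.γinj (hFB hb) h'.1 h'.2
          left; change T₂ (D.γ b) ∈ F
          rw [← this]; exact hb
        · have := D.γinj (hFB hb) h'.1 h'.2
          right; change T₃ (D.γ b) ∈ F
          rw [← this]; exact hb
  have hsum1 : D.mu ν (T₂ ⁻¹' F ∪ T₃ ⁻¹' F) = ν F + ν F := by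
    have := measure_union_add_inter (μ := D.mu ν) (T₂ ⁻¹' F) (hT₃ hFm)
    rw [hdisj, add_zero, t2, t3] at this
    exact this
  have hsum2 : D.mu ν ((A₁ ∩ E) ∪ D.γ '' F) = D.mu ν (A₁ ∩ E) + ν F := by
    rw [measure_union _ hγF, k2]
    rw [Set.disjoint_left]
    intro x hx hx'
    exact D.cl_ne (by decide) hx.1.1 (hγF2 hx') rfl
  rw [hsum1, hsum2] at hunion
  have hνF : ν F ≠ ∞ := measure_ne_top _ _
  have := (ENNReal.add_left_inj hνF).mp hunion
  rw [← this, k3]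

include hν in
theorem no_monge [IsFiniteMeasure ν]
    (hlow : ∃ U ∈ 𝓝 e1, ∀ E ⊆ U, ν E = 0 → volume E = 0) :
    ¬ HasOptimalMongePlan (D.mu ν) := by
  rintro ⟨T₂, T₃, hT₂, hT₃, hm₂, hm₃, hopt⟩
  obtain ⟨A₁, hA₁, hA₁0, hA⟩ := D.key_identity hν hT₂ hT₃ hm₂ hm₃ hopt
  obtain ⟨U, hU, hlow⟩ := hlow
  -- null sets
  have n1 : ν (D.α ⁻¹' A₁ᶜ) = 0 := by
    rw [← hA _ hA₁.compl]; simp
  have n2 : ν (D.α ⁻¹' (σ ⁻¹' A₁)) = 0 := by
    have h1 := hA A₁ hA₁
    rw [inter_self, D.mu_cl0 hν hA₁ hA₁0] at h1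
    have hfin : ν (D.α ⁻¹' A₁) ≠ ∞ := measure_ne_top _ _
    have h2 : ν (D.α ⁻¹' A₁) + ν (D.α ⁻¹' (σ ⁻¹' A₁)) = ν (D.α ⁻¹' A₁) + 0 := by
      rw [add_zero]; exact h1
    exact (ENNReal.add_right_inj hfin).mp h2
  set W : Set E3 := D.α '' (U ∩ Metric.closedBall e1 D.r) with hW
  have hWn : W ∈ 𝓝 (0 : E3) := D.open_α U hU
  have pull : ∀ N : Set E3, ν (D.α ⁻¹' N) = 0 → volume (N ∩ W) = 0 := by
    intro N hN
    have h1 : N ∩ W ⊆ D.α '' (D.α ⁻¹' N ∩ (U ∩ Metric.closedBall e1 D.r)) := by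
      rintro x ⟨hx, ⟨b, hb, rfl⟩⟩
      exact ⟨b, ⟨hx, hb⟩, rfl⟩
    refine measure_mono_null h1 ?_
    have h2 : volume (D.α ⁻¹' N ∩ (U ∩ Metric.closedBall e1 D.r)) = 0 := by
      refine hlow _ (fun b hb => hb.2.1) ?_
      exact measure_mono_null inter_subset_left hN
    have h3 := D.volα' (D.α ⁻¹' N ∩ (U ∩ Metric.closedBall e1 D.r)) (fun b hb => hb.2.2)
    rw [h2, mul_zero] at h3
    exact le_antisymm h3 bot_le
  have v1 := pull _ n1
  have v2 := pull _ n2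
  have v3 : volume (σ ⁻¹' (σ ⁻¹' A₁ ∩ W)) = 0 :=
    σ_mp.quasiMeasurePreserving.preimage_null v2
  have v4 : volume (A₁ ∩ σ ⁻¹' W) = 0 := by
    refine measure_mono_null ?_ v3
    rintro x ⟨hx, hx'⟩
    refine ⟨?_, hx'⟩
    change σ (σ x) ∈ A₁
    rw [σ_σ]; exact hx
  have hW' : W ∩ σ ⁻¹' W ∈ 𝓝 (0 : E3) := by
    refine inter_mem hWn ?_
    have hc : ContinuousAt (σ : E3 → E3) 0 := σ.continuous.continuousAt
    refine hc ?_
    rw [map_zero]; exact hWn
  have v5 : volume (W ∩ σ ⁻¹' W) = 0 := by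
    refine measure_mono_null ?_ (measure_union_null v1 v4)
    rintro x ⟨h1, h2⟩
    by_cases hx : x ∈ A₁
    · exact Or.inr ⟨hx, h2⟩
    · exact Or.inl ⟨hx, h1⟩
  have v6 : 0 < volume (W ∩ σ ⁻¹' W) := Measure.measure_pos_of_mem_nhds volume hW'
  exact absurd v5 v6.ne'

include hν in
/-- bounded density of the half measure -/
lemma mu_le {C : ℝ≥0} (hC : ν ≤ C • (volume : Measure E3)) :
    D.mu ν ≤ (2 * (C * D.K + C + C * D.K)) • (volume : Measure E3) := by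
  have key : ∀ f : E3 → E3, Measurable f →
      (∀ t ⊆ Metric.closedBall e1 D.r, volume t ≤ D.K * volume (f '' t)) →
      ∀ E, MeasurableSet E → ν (f ⁻¹' E) ≤ (C * D.K : ℝ≥0) * volume E := by
    intro f hf hvol E hE
    have h1 : ν (f ⁻¹' E) ≤ ν (f ⁻¹' E ∩ Metric.closedBall e1 D.r) := by
      refine (measure_mono_ae ?_)
      filter_upwards [D.ae_ball hν] with b hb h
      exact ⟨h, hb⟩
    have h2 : ν (f ⁻¹' E ∩ Metric.closedBall e1 D.r) ≤
        C * volume (f ⁻¹' E ∩ Metric.closedBall e1 D.r) := by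
      have := hC (f ⁻¹' E ∩ Metric.closedBall e1 D.r)
      simpa using this
    have h3 := hvol (f ⁻¹' E ∩ Metric.closedBall e1 D.r) inter_subset_right
    have h4 : volume (f '' (f ⁻¹' E ∩ Metric.closedBall e1 D.r)) ≤ volume E := by
      refine measure_mono ?_
      rintro _ ⟨b, hb, rfl⟩
      exact hb.1
    calc ν (f ⁻¹' E) ≤ C * (D.K * volume E) := by
          refine h1.trans (h2.trans ?_)
          gcongr
          refine h3.trans ?_
          gcongr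
      _ = (C * D.K : ℝ≥0) * volume E := by rw [ENNReal.coe_mul]; ring
  have kα := key D.α D.mα D.volα
  have kγ := key D.γ D.mγ D.volγ
  have kb : ∀ E, MeasurableSet E → ν E ≤ (C : ℝ≥0∞) * volume E := by
    intro E _
    have := hC E
    simpa using this
  rw [Measure.le_iff]
  intro E hE
  have hσE : MeasurableSet (σ ⁻¹' E) := σ_meas hE
  have hσv : volume (σ ⁻¹' E) = volume E := σ_mp.measure_preimage hE.nullMeasurableSet
  rw [D.mu_apply hE]
  have t1 := kα E hE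
  have t2 := kγ E hE
  have t3 := kb E hE
  have t4 := kα _ hσE
  have t5 := kγ _ hσE
  have t6 := kb _ hσE
  rw [hσv] at t4 t5 t6
  calc _ ≤ ((C * D.K : ℝ≥0) * volume E + C * volume E + (C * D.K : ℝ≥0) * volume E) +
        ((C * D.K : ℝ≥0) * volume E + C * volume E + (C * D.K : ℝ≥0) * volume E) := by gcongr
    _ = ((2 * (C * D.K + C + C * D.K) : ℝ≥0) : ℝ≥0∞) * volume E := by
        push_cast; ring
    _ = _ := by
        rw [Measure.smul_apply, ENNReal.smul_def, smul_eq_mul]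

lemma SS_subset : D.SS ⊆ Metric.closedBall (0 : E3) 2 := by
  intro x hx
  obtain ⟨i, hx⟩ := mem_iUnion.mp hx
  have h1 := D.dist_cl hx
  have h2 : dist (cen i) 0 ≤ 1 := by
    have := dist_cen_le i 0
    have h3 : dd i 0 ≤ 1 := by fin_cases i <;> simp [dd]
    have h4 : cen 0 = 0 := rfl
    rw [h4] at this
    exact this.trans h3
  have := dist_triangle x (cen i) 0
  rw [Metric.mem_closedBall]
  linarith

include hν in
lemma kanto_lt_top [IsFiniteMeasure ν] : kantorovich (D.mu ν) < ∞ := by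
  refine lt_of_le_of_lt (D.kanto_le hν) ?_
  refine ENNReal.mul_lt_top (by simp) ?_
  have : ∫⁻ x, D.phi x ∂(D.mu ν) ≤ ∫⁻ _, (5 * 2 : ℝ≥0∞) ∂(D.mu ν) := lintegral_mono D.phi_bdd
  refine lt_of_le_of_lt this ?_
  rw [lintegral_const, D.mu_univ]
  exact ENNReal.mul_lt_top (ENNReal.mul_lt_top (by simp) (by simp))
    (ENNReal.mul_lt_top (by simp) (measure_lt_top ν univ))

end Data

theorem main : ∃ μ : Measure E3, IsProbabilityMeasure μ ∧ μ ≪ volume ∧
    (∃ C : ℝ≥0, μ ≤ C • (volume : Measure E3)) ∧ (∃ K : Set E3, IsCompact K ∧ μ Kᶜ = 0) ∧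
    kantorovich μ < ∞ ∧ ¬ HasOptimalMongePlan μ := by
  obtain ⟨D⟩ := exists_data
  set B := Metric.closedBall e1 D.r with hB
  have hBm : MeasurableSet B := Metric.isClosed_closedBall.measurableSet
  have hBpos : 0 < volume B := Metric.measure_closedBall_pos _ _ D.hr
  have hBfin : volume B < ∞ := measure_closedBall_lt_top
  set c : ℝ≥0 := (6 * (volume B).toNNReal)⁻¹ with hc
  have hvB : ((volume B).toNNReal : ℝ≥0∞) = volume B := ENNReal.coe_toNNReal hBfin.ne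
  have hvB0 : (volume B).toNNReal ≠ 0 := by
    intro h; rw [h] at hvB; simp at hvB; exact hBpos.ne hvB
  have hc0 : c ≠ 0 := by rw [hc]; positivity
  set ν : Measure E3 := c • volume.restrict B with hν
  have hν0 : ν Bᶜ = 0 := by
    rw [hν, Measure.smul_apply, Measure.restrict_apply hBm.compl]; simp
  have hνu : 6 * ν univ = 1 := by
    rw [hν, Measure.smul_apply, Measure.restrict_apply_univ, ENNReal.smul_def, smul_eq_mul, ← hvB]
    rw [← ENNReal.coe_mul]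
    have : (6 : ℝ≥0∞) = ((6 : ℝ≥0) : ℝ≥0∞) := by norm_num
    rw [this, ← ENNReal.coe_mul, ENNReal.coe_eq_one, hc]
    field_simp
  have hfin : IsFiniteMeasure ν := by
    constructor
    by_contra h
    rw [not_lt, top_le_iff] at h
    rw [h] at hνu
    simp at hνu
  have hνle : ν ≤ c • (volume : Measure E3) := by
    rw [Measure.le_iff]
    intro E hE
    rw [hν, Measure.smul_apply, Measure.smul_apply]
    gcongr
    exact Measure.restrict_le_self
  have hle := D.mu_le hν0 hνle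
  refine ⟨D.mu ν, ⟨?_⟩, ?_, ⟨_, hle⟩, ⟨Metric.closedBall 0 2, isCompact_closedBall 0 2, ?_⟩,
    D.kanto_lt_top hν0, D.no_monge hν0 ⟨B, Metric.closedBall_mem_nhds _ D.hr, ?_⟩⟩
  · rw [D.mu_univ]; exact hνu
  · exact (Measure.absolutelyContinuous_of_le hle).trans (Measure.smul_absolutelyContinuous)
  · exact measure_mono_null (compl_subset_compl.mpr D.SS_subset) (D.mu_compl_SS hν0)
  · intro E hE h
    rw [hν, Measure.smul_apply, Measure.restrict_apply' hBm, inter_eq_left.mpr hE,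
      ENNReal.smul_def, smul_eq_mul] at h
    rcases mul_eq_zero.mp h with h | h
    · exact absurd (by exact_mod_cast h) hc0
    · exact h

end Vale.Agent.P121
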