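import Vale.Agent.P121.Main

/-! Smooth version of the counterexample. -/

namespace Vale.Agent.P121

open MeasureTheory Set Filter Topology
open scoped RealInnerProductSpace NNReal ENNReal ContDiff

lemma map_σ_withDensity {F : E3 → ℝ≥0∞} (hF : Measurable F) :
    (volume.withDensity F).map σ = volume.withDensity (fun x => F (σ x)) := by
  ext E hE
  rw [Measure.map_apply σ_meas hE, withDensity_apply _ (σ_meas hE), withDensity_apply _ hE]
  have h1 := σ_mp.setLIntegral_comp_preimage hE (f := fun x => F (σ x)) (hF.comp σ_meas)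
  rw [← h1]
  simp only [σ_σ]

theorem main_smooth : ∃ f : E3 → ℝ, ContDiff ℝ ∞ f ∧ HasCompactSupport f ∧ (∀ x, 0 ≤ f x) ∧
    IsProbabilityMeasure (volume.withDensity (fun x => ENNReal.ofReal (f x))) ∧
    kantorovich (volume.withDensity (fun x => ENNReal.ofReal (f x))) < ⊤ ∧
    ¬ HasOptimalMongePlan (volume.withDensity (fun x => ENNReal.ofReal (f x))) := by
  obtain ⟨D⟩ := exists_data
  have hr := D.hr
  let b : ContDiffBump (e1 : E3) := ⟨D.r / 4, D.r / 2, by positivity, by linarith⟩
  set g : E3 → ℝ := fun x => (1 / 6 : ℝ) * b.normed volume x with hg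
  have hgs : ContDiff ℝ ∞ g := contDiff_const.mul b.contDiff_normed
  have hg0 : ∀ x, 0 ≤ g x := fun x => mul_nonneg (by norm_num) (b.nonneg_normed x)
  have hgt : tsupport g ⊆ Metric.ball e1 D.r := by
    have h1 : tsupport g ⊆ tsupport (b.normed volume) := by
      refine closure_mono ?_
      intro x hx hx'
      apply hx
      rw [hg]; simp only; rw [hx', mul_zero]
    rw [b.tsupport_normed_eq] at h1
    refine h1.trans ?_
    intro x hx
    rw [Metric.mem_closedBall] at hx
    rw [Metric.mem_ball]
    have : b.rOut = D.r / 2 := rfl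
    linarith
  obtain ⟨hα, hα1, hα2, hα3, hα4⟩ := D.smα g hgs hgt hg0
  obtain ⟨hγ, hγ1, hγ2, hγ3, hγ4⟩ := D.smγ g hgs hgt hg0
  have hgc : HasCompactSupport g :=
    (isCompact_closedBall e1 D.r).of_isClosed_subset (isClosed_tsupport g)
      (hgt.trans Metric.ball_subset_closedBall)
  set H : E3 → ℝ := fun x => hα x + g x + hγ x with hH
  have hHs : ContDiff ℝ ∞ H := (hα1.add hgs).add hγ1
  have hH0 : ∀ x, 0 ≤ H x := fun x => add_nonneg (add_nonneg (hα3 x) (hg0 x)) (hγ3 x)
  have hHc : HasCompactSupport H := (hα2.add hgc).add hγ2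
  have hHm : Measurable H := hHs.continuous.measurable
  set f : E3 → ℝ := fun x => H x + H (σ x) with hf
  have hfs : ContDiff ℝ ∞ f := hHs.add (hHs.comp σ.toLinearIsometry.contDiff)
  have hf0 : ∀ x, 0 ≤ f x := fun x => add_nonneg (hH0 x) (hH0 _)
  have hfc : HasCompactSupport f :=
    hHc.add (hHc.comp_homeomorph σ.toHomeomorph)
  set ν : Measure E3 := volume.withDensity (fun x => ENNReal.ofReal (g x)) with hν
  have hgm : Measurable (fun x => ENNReal.ofReal (g x)) := hgs.continuous.measurable.ennreal_ofReal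
  have hhalf : D.half ν = volume.withDensity (fun x => ENNReal.ofReal (H x)) := by
    unfold Data.half
    rw [hα4, hγ4, hν]
    rw [← withDensity_add_left (hα1.continuous.measurable.ennreal_ofReal),
      ← withDensity_add_right _ (hγ1.continuous.measurable.ennreal_ofReal)]
    congr 1
    funext x
    simp only [Pi.add_apply, hH]
    rw [ENNReal.ofReal_add (add_nonneg (hα3 x) (hg0 x)) (hγ3 x),
      ENNReal.ofReal_add (hα3 x) (hg0 x)]
  have hmu : D.mu ν = volume.withDensity (fun x => ENNReal.ofReal (f x)) := by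
    unfold Data.mu
    rw [hhalf, map_σ_withDensity hHm.ennreal_ofReal,
      ← withDensity_add_left hHm.ennreal_ofReal]
    congr 1
    funext x
    simp only [Pi.add_apply, hf]
    rw [ENNReal.ofReal_add (hH0 x) (hH0 _)]
  have hνB : ν (Metric.closedBall e1 D.r)ᶜ = 0 := by
    rw [hν, withDensity_apply_eq_zero hgm]
    have : {x | ENNReal.ofReal (g x) ≠ 0} ∩ (Metric.closedBall e1 D.r)ᶜ = ∅ := by
      rw [Set.eq_empty_iff_forall_notMem]
      rintro x ⟨h1, h2⟩
      apply h1
      have : g x = 0 := image_eq_zero_of_notMem_tsupport fun h =>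
        h2 (Metric.ball_subset_closedBall (hgt h))
      rw [this]; simp
    rw [this]; simp
  have hνu : 6 * ν univ = 1 := by
    rw [hν, withDensity_apply _ MeasurableSet.univ, Measure.restrict_univ,
      ← ofReal_integral_eq_lintegral_ofReal]
    · rw [hg]
      rw [integral_const_mul, b.integral_normed]
      rw [mul_one]
      have : (6 : ℝ≥0∞) = ENNReal.ofReal 6 := by norm_num
      rw [this, ← ENNReal.ofReal_mul (by norm_num)]
      norm_num
    · exact hgs.continuous.integrable_of_hasCompactSupport hgc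
    · exact Filter.Eventually.of_forall hg0
  have hfin : IsFiniteMeasure ν := by
    constructor
    by_contra h
    rw [not_lt, top_le_iff] at h
    rw [h] at hνu
    simp at hνu
  refine ⟨f, hfs, hfc, hf0, ?_, ?_, ?_⟩
  · rw [← hmu]
    exact ⟨by rw [D.mu_univ]; exact hνu⟩
  · rw [← hmu]
    exact D.kanto_lt_top hνB
  · rw [← hmu]
    refine D.no_monge hνB ⟨Metric.ball e1 b.rOut, Metric.ball_mem_nhds _ b.rOut_pos, ?_⟩
    intro E hE h
    rw [hν, withDensity_apply_eq_zero hgm] at h
    have : {x | ENNReal.ofReal (g x) ≠ 0} ∩ E = E := by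
      refine inter_eq_right.mpr fun x hx => ?_
      have h1 : x ∈ Function.support (b.normed volume) := by
        rw [b.support_normed_eq]; exact hE hx
      have h2 : 0 < b.normed volume x := lt_of_le_of_ne (b.nonneg_normed x) (Ne.symm h1)
      have h3 : 0 < g x := by rw [hg]; simp only; positivity
      exact (ENNReal.ofReal_pos.mpr h3).ne'
    rwa [this] at h

end Vale.Agent.P121
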