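import Vale.Agent.P121.Contact

/-! The measure and the plan. -/

namespace Vale.Agent.P121

open MeasureTheory Set Filter Topology
open scoped RealInnerProductSpace NNReal ENNReal

lemma σ_mp : MeasurePreserving (σ : E3 → E3) volume volume := σ.measurePreserving

lemma σ_meas : Measurable (σ : E3 → E3) := σ.continuous.measurable

lemma coulomb_swap12 (x y z : E3) : coulomb x y z = coulomb y x z := by
  unfold coulomb; rw [edist_comm x y]; ring

lemma coulomb_swap23 (x y z : E3) : coulomb x y z = coulomb x z y := by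
  unfold coulomb; rw [edist_comm y z]; ring

lemma coulomb_σ (x y z : E3) : coulomb (σ x) (σ y) (σ z) = coulomb x y z := by
  unfold coulomb; rw [σ.edist_map, σ.edist_map, σ.edist_map]

lemma measurable_coulomb : Measurable (fun p : E3 × E3 × E3 => coulomb p.1 p.2.1 p.2.2) := by
  unfold coulomb
  fun_prop

namespace Data

variable (D : Data)

lemma cl_meas (i : Fin 5) : MeasurableSet (D.cl i) := by
  fin_cases i
  · exact Metric.isClosed_closedBall.measurableSet
  · exact Metric.isClosed_closedBall.measurableSet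
  · exact Metric.isClosed_closedBall.measurableSet
  · exact σ_meas Metric.isClosed_closedBall.measurableSet
  · exact σ_meas Metric.isClosed_closedBall.measurableSet

lemma measurable_cR : Measurable (fun p : E3 × E3 × E3 => cR p.1 p.2.1 p.2.2) := by
  unfold cR
  fun_prop

lemma measurable_uu : Measurable uu := by unfold uu; fun_prop
lemma measurable_ww : Measurable ww := by unfold ww; fun_prop

lemma vv_eq : D.vv = fun b : E3 => cR (D.α b) b (D.γ b) - uu (D.α b) - ww (D.γ b) := rfl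

lemma vv_meas : Measurable D.vv := by
  rw [vv_eq]
  have h0 : Measurable fun b : E3 => (D.α b, b, D.γ b) := D.mα.prodMk (measurable_id.prodMk D.mγ)
  have h1 : Measurable fun b : E3 => cR (D.α b) b (D.γ b) := by
    have := measurable_cR.comp h0
    simpa only [Function.comp_def] using this
  have h2 : Measurable fun b : E3 => uu (D.α b) := measurable_uu.comp D.mα
  have h3 : Measurable fun b : E3 => ww (D.γ b) := measurable_ww.comp D.mγ
  exact (h1.sub h2).sub h3

lemma pot_meas (i : Fin 5) : Measurable (D.pot i) := by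
  fin_cases i
  · exact measurable_uu
  · exact D.vv_meas
  · exact measurable_ww
  · exact D.vv_meas.comp σ_meas
  · exact measurable_ww.comp σ_meas

/-- the potential as a function on the whole space -/
noncomputable def phi (x : E3) : ℝ≥0∞ :=
  ∑ i : Fin 5, (D.cl i).indicator (fun x => ENNReal.ofReal (D.pot i x)) x

lemma phi_meas : Measurable D.phi := by
  unfold phi
  exact Finset.measurable_sum _ fun i _ =>
    ((D.pot_meas i).ennreal_ofReal).indicator (D.cl_meas i)

lemma phi_eq {i : Fin 5} {x : E3} (hx : x ∈ D.cl i) : D.phi x = ENNReal.ofReal (D.pot i x) := by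
  unfold phi
  rw [Finset.sum_eq_single i]
  · rw [Set.indicator_of_mem hx]
  · intro j _ hj
    rw [Set.indicator_of_notMem]
    intro h
    exact hj (D.cl_unique h hx)
  · intro h; exact absurd (Finset.mem_univ i) h

/-- union of the clusters -/
def SS : Set E3 := ⋃ i, D.cl i

lemma SS_meas : MeasurableSet D.SS := MeasurableSet.iUnion D.cl_meas

lemma pot_nonneg {i : Fin 5} {x : E3} (hx : x ∈ D.cl i) : 0 ≤ D.pot i x := by
  have a1 := abs_le.mp (D.pot_val hx)
  have v1 := val_ge i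
  linarith

lemma phi_sum {i j k : Fin 5} {x y z : E3} (hx : x ∈ D.cl i) (hy : y ∈ D.cl j) (hz : z ∈ D.cl k) :
    D.phi x + D.phi y + D.phi z = ENNReal.ofReal (D.pot i x + D.pot j y + D.pot k z) := by
  rw [D.phi_eq hx, D.phi_eq hy, D.phi_eq hz, ENNReal.ofReal_add, ENNReal.ofReal_add]
  · exact D.pot_nonneg hx
  · exact D.pot_nonneg hy
  · exact add_nonneg (D.pot_nonneg hx) (D.pot_nonneg hy)
  · exact D.pot_nonneg hz

lemma phi_le {x y z : E3} (hx : x ∈ D.SS) (hy : y ∈ D.SS) (hz : z ∈ D.SS) :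
    D.phi x + D.phi y + D.phi z ≤ coulomb x y z := by
  obtain ⟨i, hx⟩ := mem_iUnion.mp hx
  obtain ⟨j, hy⟩ := mem_iUnion.mp hy
  obtain ⟨k, hz⟩ := mem_iUnion.mp hz
  rw [D.phi_sum hx hy hz]
  exact (D.all_le hx hy hz).1

lemma phi_contact {x y z : E3} (hx : x ∈ D.SS) (hy : y ∈ D.SS) (hz : z ∈ D.SS)
    (h : D.phi x + D.phi y + D.phi z = coulomb x y z) : D.Contact x y z := by
  obtain ⟨i, hx⟩ := mem_iUnion.mp hx
  obtain ⟨j, hy⟩ := mem_iUnion.mp hy
  obtain ⟨k, hz⟩ := mem_iUnion.mp hz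
  rw [D.phi_sum hx hy hz] at h
  exact (D.all_le hx hy hz).2 h

lemma αcl {b : E3} (hb : b ∈ Metric.closedBall e1 D.r) : D.α b ∈ D.cl 0 := D.αA b hb
lemma bcl {b : E3} (hb : b ∈ Metric.closedBall e1 D.r) : b ∈ D.cl 1 := hb
lemma γcl {b : E3} (hb : b ∈ Metric.closedBall e1 D.r) : D.γ b ∈ D.cl 2 := D.γC b hb

lemma σbcl {b : E3} (hb : b ∈ Metric.closedBall e1 D.r) : σ b ∈ D.cl 3 := by
  change σ (σ b) ∈ Metric.closedBall e1 D.r
  rwa [σ_σ]
lemma σγcl {b : E3} (hb : b ∈ Metric.closedBall e1 D.r) : σ (D.γ b) ∈ D.cl 4 := by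
  change σ (σ (D.γ b)) ∈ Metric.closedBall (-e1) D.R
  rw [σ_σ]; exact D.γC b hb
lemma σαcl {b : E3} (hb : b ∈ Metric.closedBall e1 D.r) : σ (D.α b) ∈ D.cl 0 :=
  D.σ_cl0 (D.αcl hb)

lemma eq_on_sheet {b : E3} (hb : b ∈ Metric.closedBall e1 D.r) :
    coulomb (D.α b) b (D.γ b) = D.phi (D.α b) + D.phi b + D.phi (D.γ b) := by
  rw [D.phi_sum (D.αcl hb) (D.bcl hb) (D.γcl hb), coulomb_eq (D.cl_ne (by decide) (D.αcl hb) (D.bcl hb))
    (D.cl_ne (by decide) (D.αcl hb) (D.γcl hb)) (D.cl_ne (by decide) (D.bcl hb) (D.γcl hb))]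
  congr 1
  have e0 : D.pot 0 (D.α b) = uu (D.α b) := rfl
  have e1' : D.pot 1 b = cR (D.α b) b (D.γ b) - uu (D.α b) - ww (D.γ b) := rfl
  have e2' : D.pot 2 (D.γ b) = ww (D.γ b) := rfl
  rw [e0, e1', e2']; ring

lemma phi_σ0 {x : E3} (hx : x ∈ D.cl 0) : D.phi (σ x) = D.phi x := by
  rw [D.phi_eq hx, D.phi_eq (D.σ_cl0 hx)]
  congr 1; exact uu_σ x

lemma phi_σ1 {x : E3} (hx : x ∈ Metric.closedBall e1 D.r) : D.phi (σ x) = D.phi x := by
  rw [D.phi_eq (D.bcl hx), D.phi_eq (D.σbcl hx)]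
  congr 1
  change D.vv (σ (σ x)) = D.vv x
  rw [σ_σ]

lemma phi_σ2 {x : E3} (hx : x ∈ D.cl 2) : D.phi (σ x) = D.phi x := by
  have h : σ x ∈ D.cl 4 := by
    change σ (σ x) ∈ Metric.closedBall (-e1) D.R
    rw [σ_σ]; exact hx
  rw [D.phi_eq hx, D.phi_eq h]
  congr 1
  change ww (σ (σ x)) = ww x
  rw [σ_σ]

lemma eq_on_sheet' {b : E3} (hb : b ∈ Metric.closedBall e1 D.r) :
    coulomb (σ (D.α b)) (σ b) (σ (D.γ b)) =
      D.phi (σ (D.α b)) + D.phi (σ b) + D.phi (σ (D.γ b)) := by
  rw [coulomb_σ, D.phi_σ0 (D.αcl hb), D.phi_σ1 hb, D.phi_σ2 (D.γcl hb)]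
  exact D.eq_on_sheet hb

/-- half of the measure -/
noncomputable def half (ν : Measure E3) : Measure E3 := ν.map D.α + ν + ν.map D.γ

/-- the measure -/
noncomputable def mu (ν : Measure E3) : Measure E3 := D.half ν + (D.half ν).map σ

variable {ν : Measure E3} (hν : ν (Metric.closedBall e1 D.r)ᶜ = 0)

include hν in
lemma ae_ball : ∀ᵐ b ∂ν, b ∈ Metric.closedBall e1 D.r := by
  rw [ae_iff]; exact hν

/-- the optimal plan -/
noncomputable def plan (ν : Measure E3) : Measure (E3 × E3 × E3) :=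
  (ν.map (fun b => (D.α b, b, D.γ b)) + ν.map (fun b => (b, D.γ b, D.α b)) +
    ν.map (fun b => (D.γ b, D.α b, b))) +
  (ν.map (fun b => (σ (D.α b), σ b, σ (D.γ b))) + ν.map (fun b => (σ b, σ (D.γ b), σ (D.α b))) +
    ν.map (fun b => (σ (D.γ b), σ (D.α b), σ b)))

lemma m1 : Measurable (fun b => (D.α b, b, D.γ b)) := D.mα.prodMk (measurable_id.prodMk D.mγ)
lemma m2 : Measurable (fun b => (b, D.γ b, D.α b)) := measurable_id.prodMk (D.mγ.prodMk D.mα)
lemma m3 : Measurable (fun b => (D.γ b, D.α b, b)) := D.mγ.prodMk (D.mα.prodMk measurable_id)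
lemma m4 : Measurable (fun b => (σ (D.α b), σ b, σ (D.γ b))) :=
  (σ_meas.comp D.mα).prodMk (σ_meas.prodMk (σ_meas.comp D.mγ))
lemma m5 : Measurable (fun b => (σ b, σ (D.γ b), σ (D.α b))) :=
  σ_meas.prodMk ((σ_meas.comp D.mγ).prodMk (σ_meas.comp D.mα))
lemma m6 : Measurable (fun b => (σ (D.γ b), σ (D.α b), σ b)) :=
  (σ_meas.comp D.mγ).prodMk ((σ_meas.comp D.mα).prodMk σ_meas)

lemma map_half (ν : Measure E3) : (D.half ν).map σ =
    ν.map (fun b => σ (D.α b)) + ν.map (fun b => σ b) + ν.map (fun b => σ (D.γ b)) := by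
  unfold half
  rw [Measure.map_add _ _ σ_meas, Measure.map_add _ _ σ_meas, Measure.map_map σ_meas D.mα,
    Measure.map_map σ_meas D.mγ]
  rfl

lemma plan_isPlan (ν : Measure E3) : IsPlan (D.mu ν) (D.plan ν) := by
  have p1 : Measurable (fun p : E3 × E3 × E3 => p.1) := measurable_fst
  have p2 : Measurable (fun p : E3 × E3 × E3 => p.2.1) := measurable_fst.comp measurable_snd
  have p3 : Measurable (fun p : E3 × E3 × E3 => p.2.2) := measurable_snd.comp measurable_snd
  have mid : ν.map (fun b : E3 => b) = ν := Measure.map_id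
  refine ⟨?_, ?_, ?_⟩
  · unfold mu plan
    rw [map_half]
    rw [Measure.map_add _ _ p1, Measure.map_add _ _ p1, Measure.map_add _ _ p1,
      Measure.map_add _ _ p1, Measure.map_add _ _ p1,
      Measure.map_map p1 D.m1, Measure.map_map p1 D.m2, Measure.map_map p1 D.m3,
      Measure.map_map p1 D.m4, Measure.map_map p1 D.m5, Measure.map_map p1 D.m6]
    simp only [Function.comp_def, half, mid]
  · unfold mu plan
    rw [map_half]
    rw [Measure.map_add _ _ p2, Measure.map_add _ _ p2, Measure.map_add _ _ p2,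
      Measure.map_add _ _ p2, Measure.map_add _ _ p2,
      Measure.map_map p2 D.m1, Measure.map_map p2 D.m2, Measure.map_map p2 D.m3,
      Measure.map_map p2 D.m4, Measure.map_map p2 D.m5, Measure.map_map p2 D.m6]
    simp only [Function.comp_def, half, mid]
    abel
  · unfold mu plan
    rw [map_half]
    rw [Measure.map_add _ _ p3, Measure.map_add _ _ p3, Measure.map_add _ _ p3,
      Measure.map_add _ _ p3, Measure.map_add _ _ p3,
      Measure.map_map p3 D.m1, Measure.map_map p3 D.m2, Measure.map_map p3 D.m3,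
      Measure.map_map p3 D.m4, Measure.map_map p3 D.m5, Measure.map_map p3 D.m6]
    simp only [Function.comp_def, half, mid]
    abel

include hν in
lemma plan_ae : ∀ᵐ p ∂(D.plan ν), coulomb p.1 p.2.1 p.2.2 =
    D.phi p.1 + D.phi p.2.1 + D.phi p.2.2 := by
  have hb := D.ae_ball hν
  have hm : MeasurableSet {p : E3 × E3 × E3 | coulomb p.1 p.2.1 p.2.2 =
      D.phi p.1 + D.phi p.2.1 + D.phi p.2.2} := by
    have h1 := D.phi_meas
    exact measurableSet_eq_fun measurable_coulomb
      (((h1.comp measurable_fst).add (h1.comp (measurable_fst.comp measurable_snd))).add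
        (h1.comp (measurable_snd.comp measurable_snd)))
  unfold plan
  simp only [ae_add_measure_iff]
  refine ⟨⟨⟨?_, ?_⟩, ?_⟩, ⟨⟨?_, ?_⟩, ?_⟩⟩
  · rw [ae_map_iff D.m1.aemeasurable hm]
    filter_upwards [hb] with b hb
    exact D.eq_on_sheet hb
  · rw [ae_map_iff D.m2.aemeasurable hm]
    filter_upwards [hb] with b hb
    have h := D.eq_on_sheet hb
    rw [coulomb_swap12, coulomb_swap23] at h
    rw [h]; ring
  · rw [ae_map_iff D.m3.aemeasurable hm]
    filter_upwards [hb] with b hb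
    have h := D.eq_on_sheet hb
    rw [coulomb_swap23, coulomb_swap12] at h
    rw [h]; ring
  · rw [ae_map_iff D.m4.aemeasurable hm]
    filter_upwards [hb] with b hb
    exact D.eq_on_sheet' hb
  · rw [ae_map_iff D.m5.aemeasurable hm]
    filter_upwards [hb] with b hb
    have h := D.eq_on_sheet' hb
    rw [coulomb_swap12, coulomb_swap23] at h
    rw [h]; ring
  · rw [ae_map_iff D.m6.aemeasurable hm]
    filter_upwards [hb] with b hb
    have h := D.eq_on_sheet' hb
    rw [coulomb_swap23, coulomb_swap12] at h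
    rw [h]; ring

include hν in
lemma kanto_le : kantorovich (D.mu ν) ≤ 3 * ∫⁻ x, D.phi x ∂(D.mu ν) := by
  have h1 : kantorovich (D.mu ν) ≤ ∫⁻ p, coulomb p.1 p.2.1 p.2.2 ∂(D.plan ν) :=
    iInf₂_le _ (D.plan_isPlan ν)
  refine h1.trans ?_
  rw [lintegral_congr_ae (D.plan_ae hν)]
  have hp := D.plan_isPlan ν
  have p1 : Measurable (fun p : E3 × E3 × E3 => p.1) := measurable_fst
  have p2 : Measurable (fun p : E3 × E3 × E3 => p.2.1) := measurable_fst.comp measurable_snd
  have p3 : Measurable (fun p : E3 × E3 × E3 => p.2.2) := measurable_snd.comp measurable_snd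
  have h := D.phi_meas
  have hp2 : Measurable (fun p : E3 × E3 × E3 => D.phi p.2.1) := h.comp p2
  have hp3 : Measurable (fun p : E3 × E3 × E3 => D.phi p.2.2) := h.comp p3
  rw [lintegral_add_right _ hp3, lintegral_add_right _ hp2]
  have i1 : ∫⁻ p, D.phi p.1 ∂(D.plan ν) = ∫⁻ x, D.phi x ∂(D.mu ν) := by
    conv_rhs => rw [← hp.1]
    rw [lintegral_map h p1]
  have i2 : ∫⁻ p, D.phi p.2.1 ∂(D.plan ν) = ∫⁻ x, D.phi x ∂(D.mu ν) := by
    conv_rhs => rw [← hp.2.1]
    rw [lintegral_map h p2]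
  have i3 : ∫⁻ p, D.phi p.2.2 ∂(D.plan ν) = ∫⁻ x, D.phi x ∂(D.mu ν) := by
    conv_rhs => rw [← hp.2.2]
    rw [lintegral_map h p3]
  rw [i1, i2, i3]
  ring_nf
  rfl

lemma phi_bdd (x : E3) : D.phi x ≤ 5 * 2 := by
  unfold phi
  have : ∀ i ∈ (Finset.univ : Finset (Fin 5)),
      (D.cl i).indicator (fun x => ENNReal.ofReal (D.pot i x)) x ≤ 2 := by
    intro i _
    by_cases hx : x ∈ D.cl i
    · rw [Set.indicator_of_mem hx]
      have a1 := abs_le.mp (D.pot_val hx)
      have v1 := val_le i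
      have : D.pot i x ≤ 2 := by linarith
      calc ENNReal.ofReal (D.pot i x) ≤ ENNReal.ofReal 2 := ENNReal.ofReal_le_ofReal this
        _ = 2 := by norm_num
    · rw [Set.indicator_of_notMem hx]; exact bot_le
  refine (Finset.sum_le_sum this).trans ?_
  simp

end Data

end Vale.Agent.P121
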