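import Vale.Agent.P121.Local

/-! The dual potentials near the collinear configuration and strict minimality. -/

namespace Vale.Agent.P121

open MeasureTheory Set Filter Topology
open scoped RealInnerProductSpace

/-- potential near the origin -/
noncomputable def uu (a : E3) : ℝ := 3 / 2 - 2 * ‖a‖ ^ 2

/-- potential near `-e1` -/
noncomputable def ww (c : E3) : ℝ :=
  1 / 2 + 5 / 4 * ⟪e1, c + e1⟫ - ‖c + e1‖ ^ 2 + 3 / 2 * ⟪e1, c + e1⟫ ^ 2

/-- real valued Coulomb energy -/
noncomputable def cR (x y z : E3) : ℝ := ‖x - y‖⁻¹ + ‖x - z‖⁻¹ + ‖y - z‖⁻¹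

/-- the energy minus the potentials of the free variables `z = (a,c)` -/
noncomputable def Psi (b : E3) (z : E3 × E3) : ℝ := cR z.1 b z.2 - uu z.1 - ww z.2

lemma hasDerivAt_inv_norm {x y : E3} {t : ℝ} (h : x + t • y ≠ 0) :
    HasDerivAt (fun s : ℝ => ‖x + s • y‖⁻¹) (-⟪kf (x + t • y), y⟫) t := by
  have h1 := (hasStrictFDerivAt_norm' h).hasFDerivAt
  have h0 : ‖x + t • y‖ ≠ 0 := norm_ne_zero_iff.mpr h
  have h2 : HasDerivAt (fun s : ℝ => x + s • y) y t := by
    have := ((hasDerivAt_id t).smul_const y).const_add x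
    simpa using this
  have h3 : HasDerivAt (fun s : ℝ => ‖x + s • y‖) ((‖x + t • y‖⁻¹ • innerSL ℝ (x + t • y)) y) t :=
    h1.comp_hasDerivAt t h2
  have h4 := h3.fun_inv h0
  refine h4.congr_deriv ?_
  rw [kf, real_inner_smul_left]
  simp only [smul_apply, innerSL_apply_apply, smul_eq_mul]
  field_simp

lemma hasDerivAt_Psi {b : E3} {z ζ : E3 × E3} {t : ℝ}
    (h1 : (z + t • ζ).1 ≠ b) (h2 : (z + t • ζ).1 ≠ (z + t • ζ).2) (h3 : b ≠ (z + t • ζ).2) :
    HasDerivAt (fun s : ℝ => Psi b (z + s • ζ)) (pr (GG (b, z + t • ζ)) ζ) t := by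
  obtain ⟨a, c⟩ := z
  obtain ⟨α, γ⟩ := ζ
  simp only [Prod.smul_mk, Prod.mk_add_mk] at h1 h2 h3 ⊢
  have d1 : HasDerivAt (fun s : ℝ => ‖(a + s • α) - b‖⁻¹) (-⟪kf (a + t • α - b), α⟫) t := by
    have hne : (a - b) + t • α ≠ 0 := by
      intro h; apply h1; rw [← sub_eq_zero, ← h]; abel
    have h := hasDerivAt_inv_norm hne
    have e1 : (fun s : ℝ => ‖(a - b) + s • α‖⁻¹) = fun s : ℝ => ‖(a + s • α) - b‖⁻¹ := by
      funext s; congr 2; abel
    have e2 : (a - b) + t • α = a + t • α - b := by abel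
    rw [e1, e2] at h
    exact h
  have d2 : HasDerivAt (fun s : ℝ => ‖(a + s • α) - (c + s • γ)‖⁻¹)
      (-⟪kf (a + t • α - (c + t • γ)), α - γ⟫) t := by
    have hne : (a - c) + t • (α - γ) ≠ 0 := by
      intro h; apply h2; rw [← sub_eq_zero, ← h, smul_sub]; abel
    have h := hasDerivAt_inv_norm hne
    have e1 : (fun s : ℝ => ‖(a - c) + s • (α - γ)‖⁻¹) =
        fun s : ℝ => ‖(a + s • α) - (c + s • γ)‖⁻¹ := by
      funext s; congr 2; rw [smul_sub]; abel
    have e2 : (a - c) + t • (α - γ) = a + t • α - (c + t • γ) := by rw [smul_sub]; abel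
    rw [e1, e2] at h
    exact h
  have d3 : HasDerivAt (fun s : ℝ => ‖b - (c + s • γ)‖⁻¹)
      (-⟪kf (b - (c + t • γ)), -γ⟫) t := by
    have hne : (b - c) + t • (-γ) ≠ 0 := by
      intro h; apply h3; rw [← sub_eq_zero, ← h, smul_neg]; abel
    have h := hasDerivAt_inv_norm hne
    have e1 : (fun s : ℝ => ‖(b - c) + s • (-γ)‖⁻¹) =
        fun s : ℝ => ‖b - (c + s • γ)‖⁻¹ := by
      funext s; congr 2; rw [smul_neg]; abel
    have e2 : (b - c) + t • (-γ) = b - (c + t • γ) := by rw [smul_neg]; abel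
    rw [e1, e2] at h
    exact h
  have l1 : HasDerivAt (fun s : ℝ => a + s • α) α t := by
    simpa using ((hasDerivAt_id t).smul_const α).const_add a
  have l2 : HasDerivAt (fun s : ℝ => c + s • γ + e1) γ t := by
    simpa using (((hasDerivAt_id t).smul_const γ).const_add c).add_const e1
  have d4 : HasDerivAt (fun s : ℝ => uu (a + s • α)) (-(4 * ⟪a + t • α, α⟫)) t := by
    have h := (l1.norm_sq.const_mul 2).const_sub (3 / 2)
    refine h.congr_deriv ?_
    ring
  have d5 : HasDerivAt (fun s : ℝ => ww (c + s • γ))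
      (5 / 4 * ⟪e1, γ⟫ - 2 * ⟪c + t • γ + e1, γ⟫ + 3 * ⟪e1, c + t • γ + e1⟫ * ⟪e1, γ⟫) t := by
    have h1 : HasDerivAt (fun s : ℝ => ⟪e1, c + s • γ + e1⟫) ⟪e1, γ⟫ t := by
      have := (hasDerivAt_const t e1).inner ℝ l2
      simpa using this
    have h := (((h1.const_mul (5 / 4)).const_add (1 / 2)).sub l2.norm_sq).add
      ((h1.pow 2).const_mul (3 / 2))
    refine h.congr_deriv ?_
    simp
    ring
  have d := (((d1.add d2).add d3).sub d4).sub d5
  refine d.congr_deriv ?_
  simp only [pr, GG, inner_add_left, inner_sub_left, inner_neg_left, inner_neg_right,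
    inner_sub_right, inner_smul_left, KK_apply, conj_trivial, inner_add_right, inner_smul_right,
    real_inner_comm]
  ring



/-- strict minimality at a critical point -/
lemma strict_min : ∃ R > 0, R ≤ 1 / 100 ∧ ∀ (b : E3) (z z' : E3 × E3), dist b e1 ≤ R →
    dist z (0, -e1) ≤ R → dist z' (0, -e1) ≤ R → GG (b, z') = 0 → z ≠ z' →
    Psi b z' < Psi b z := by
  obtain ⟨ε, hε, h⟩ := Metric.eventually_nhds_iff_ball.mp eventually_mono
  refine ⟨min (ε / 2) (1 / 100), by positivity, min_le_right _ _, ?_⟩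
  intro b z z' hb hz hz' hG hne
  set R := min (ε / 2) (1 / 100) with hR
  have hR1 : R < ε := lt_of_le_of_lt (min_le_left _ _) (by linarith)
  have hR2 : R ≤ 1 / 100 := min_le_right _ _
  set ζ := z - z' with hζ
  have hζ0 : ζ ≠ 0 := sub_ne_zero.mpr hne
  have hball : ∀ t ∈ Icc (0 : ℝ) 1, dist (z' + t • ζ) (0, -e1) ≤ R := by
    intro t ht
    have hc : Convex ℝ (Metric.closedBall ((0 : E3), -e1) R) := convex_closedBall _ _
    have := hc.add_smul_sub_mem (x := z') (y := z) (by simpa using hz') (by simpa using hz) ht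
    simpa [hζ] using this
  have hsep : ∀ w : E3 × E3, dist w (0, -e1) ≤ R → w.1 ≠ b ∧ w.1 ≠ w.2 ∧ b ≠ w.2 := by
    intro w hw
    rw [Prod.dist_eq] at hw
    have h1 : dist w.1 0 ≤ R := le_trans (le_max_left _ _) hw
    have h2 : dist w.2 (-e1) ≤ R := le_trans (le_max_right _ _) hw
    have n1 : dist (0 : E3) e1 = 1 := by rw [dist_comm, dist_zero_right, norm_e1]
    have n2 : dist (0 : E3) (-e1) = 1 := by rw [dist_comm, dist_zero_right, norm_neg, norm_e1]
    have n3 : dist e1 (-e1) = 2 := by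
      rw [dist_eq_norm, sub_neg_eq_add, ← two_smul ℝ, norm_smul, norm_e1]; norm_num
    refine ⟨?_, ?_, ?_⟩
    · intro heq
      have := dist_triangle_left (0 : E3) e1 w.1
      rw [heq] at this h1
      linarith
    · intro heq
      have := dist_triangle_left (0 : E3) (-e1) w.1
      rw [heq] at this h1
      linarith
    · intro heq
      have := dist_triangle_left e1 (-e1) b
      rw [← heq] at h2
      linarith
  have hder : ∀ t ∈ Icc (0 : ℝ) 1,
      HasDerivAt (fun s : ℝ => Psi b (z' + s • ζ)) (pr (GG (b, z' + t • ζ)) ζ) t := by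
    intro t ht
    obtain ⟨h1, h2, h3⟩ := hsep _ (hball t ht)
    exact hasDerivAt_Psi h1 h2 h3
  have hpos : ∀ t ∈ Ioo (0 : ℝ) 1, 0 < pr (GG (b, z' + t • ζ)) ζ := by
    intro t ht
    have hq : ((b, z' + t • ζ), (b, z')) ∈ Metric.ball (p0, p0) ε := by
      have h1 := hball t ⟨ht.1.le, ht.2.le⟩
      have e : dist ((b, z' + t • ζ), (b, z')) (p0, p0) =
          max (max (dist b e1) (dist (z' + t • ζ) (0, -e1)))
            (max (dist b e1) (dist z' (0, -e1))) := rfl
      rw [Metric.mem_ball, e]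
      refine max_lt (max_lt ?_ ?_) (max_lt ?_ ?_) <;> linarith
    have h1 := h _ hq rfl
    simp only at h1
    have h2 : z' + t • ζ ≠ z' := by
      intro heq
      have : t • ζ = 0 := by simpa using heq
      rcases smul_eq_zero.mp this with h | h
      · exact absurd h ht.1.ne'
      · exact hζ0 h
    have h3 := h1 h2
    rw [hG, sub_zero, add_sub_cancel_left] at h3
    have h4 : pr (GG (b, z' + t • ζ)) (t • ζ) = t * pr (GG (b, z' + t • ζ)) ζ := by
      simp [pr, inner_smul_right]; ring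
    rw [h4] at h3
    exact pos_of_mul_pos_right h3 ht.1.le
  have hmono : StrictMonoOn (fun s : ℝ => Psi b (z' + s • ζ)) (Icc 0 1) := by
    refine strictMonoOn_of_deriv_pos (convex_Icc 0 1) ?_ ?_
    · intro t ht
      exact (hder t ht).continuousAt.continuousWithinAt
    · intro t ht
      rw [interior_Icc] at ht
      rw [(hder t ⟨ht.1.le, ht.2.le⟩).deriv]
      exact hpos t ht
  have := hmono (left_mem_Icc.mpr zero_le_one) (right_mem_Icc.mpr zero_le_one) zero_lt_one
  simpa [hζ] using this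

end Vale.Agent.P121
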